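import Vale.Agent.P078.Upper

/-!
# P078: fresh vectors under the projections of a diffuse algebra
-/

namespace Vale.Agent.P078

open scoped InnerProductSpace

variable {H : Type*} [NormedAddCommGroup H] [InnerProductSpace ℂ H] [CompleteSpace H]
variable {A : StarSubalgebra ℂ (H →L[ℂ] H)}

lemma exists_unit_in_range {e : H →L[ℂ] H} (hep : IsStarProjection e) (he0 : e ≠ 0) :
    ∃ w : H, ‖w‖ = 1 ∧ e w = w := by
  have : ∃ v, e v ≠ 0 := by
    by_contra h
    push Not at h
    apply he0
    ext v
    simpa using h v
  obtain ⟨v, hv⟩ := this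
  refine ⟨nrm (e v), ?_, ?_⟩
  · rcases nrm_norm (e v) with h | h
    · exact h
    · exfalso
      have h1 := inner_nrm_smul (e v)
      rw [h] at h1
      simp at h1
      exact hv h1.symm
  · rw [nrm, map_smul, proj_apply_apply hep]

/-- Under a nonzero projection of a diffuse algebra there is a unit vector orthogonal to any
given finite set of vectors. -/
lemma exists_orth_unit (hd : IsDiffuse A) (S : Finset H) :
    ∀ e ∈ A, IsStarProjection e → e ≠ 0 →
      ∃ w : H, ‖w‖ = 1 ∧ e w = w ∧ ∀ s ∈ S, ⟪s, w⟫_ℂ = 0 := by
  classical
  induction S using Finset.induction_on with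
  | empty =>
    intro e _ hep he0
    obtain ⟨w, h1, h2⟩ := exists_unit_in_range hep he0
    exact ⟨w, h1, h2, by simp⟩
  | insert s S _ ih =>
    intro e heA hep he0
    obtain ⟨f, hfA, hfp, hfe, hf0, hfne⟩ := hd e heA hep he0
    have hef : e * f = f := by
      have := congrArg star hfe
      rwa [star_mul, hfp.isSelfAdjoint.star_eq, hep.isSelfAdjoint.star_eq] at this
    set g := e - f with hg
    have hgA : g ∈ A := sub_mem heA hfA
    have hgp : IsStarProjection g := by
      refine ⟨?_, ?_⟩
      · unfold IsIdempotentElem
        rw [hg, mul_sub, sub_mul, sub_mul, hep.isIdempotentElem.eq, hfe, hef,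
          hfp.isIdempotentElem.eq]
        abel
      · exact hep.isSelfAdjoint.sub hfp.isSelfAdjoint
    have hg0 : g ≠ 0 := by
      intro h
      apply hfne
      rw [hg, sub_eq_zero] at h
      exact h.symm
    have hfg : f * g = 0 := by
      rw [hg, mul_sub, hfe, hfp.isIdempotentElem.eq, sub_self]
    obtain ⟨w₁, hn1, hw1, ho1⟩ := ih f hfA hfp hf0
    obtain ⟨w₂, hn2, hw2, ho2⟩ := ih g hgA hgp hg0
    have hew1 : e w₁ = w₁ := by
      rw [← hw1, ← mul_apply', hef]
    have hew2 : e w₂ = w₂ := by
      have : e * g = g := by
        rw [hg, mul_sub, hep.isIdempotentElem.eq, hef]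
      rw [← hw2, ← mul_apply', this]
    have h12 : ⟪w₁, w₂⟫_ℂ = 0 := by
      rw [← hw1, ← hw2, inner_sa hfp.isSelfAdjoint, ← mul_apply', hfg]
      simp
    by_cases h1 : ⟪s, w₁⟫_ℂ = 0
    · refine ⟨w₁, hn1, hew1, ?_⟩
      intro t ht
      rw [Finset.mem_insert] at ht
      rcases ht with rfl | ht
      · exact h1
      · exact ho1 t ht
    · set v := ⟪s, w₂⟫_ℂ • w₁ - ⟪s, w₁⟫_ℂ • w₂ with hv
      have hv0 : v ≠ 0 := by
        intro h
        have h2 : ⟪w₂, v⟫_ℂ = 0 := by rw [h]; simp
        rw [hv, inner_sub_right, inner_smul_right, inner_smul_right,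
          inner_self_eq_norm_sq_to_K, hn2] at h2
        have h21 : ⟪w₂, w₁⟫_ℂ = 0 := by
          rw [← inner_conj_symm, h12]; simp
        rw [h21] at h2
        simp at h2
        exact h1 h2
      have hev : e v = v := by
        rw [hv, map_sub, map_smul, map_smul, hew1, hew2]
      have hsv : ⟪s, v⟫_ℂ = 0 := by
        rw [hv, inner_sub_right, inner_smul_right, inner_smul_right]
        ring
      refine ⟨nrm v, ?_, ?_, ?_⟩
      · rcases nrm_norm v with h | h
        · exact h
        · exfalso
          have h3 := inner_nrm_smul v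
          rw [h] at h3
          simp at h3
          exact hv0 h3.symm
      · rw [nrm, map_smul, hev]
      · intro t ht
        rw [nrm, inner_smul_right]
        rw [Finset.mem_insert] at ht
        rcases ht with rfl | ht
        · rw [hsv, mul_zero]
        · rw [hv, inner_sub_right, inner_smul_right, inner_smul_right, ho1 t ht, ho2 t ht]
          simp

/-- Fresh vectors `w i` under the pieces `e i`: orthogonal to the frame `u`, to `x u`, and with
`x` diagonal on them. -/
lemma exists_tilt (hd : IsDiffuse A) {x : H →L[ℂ] H} (hx : IsSelfAdjoint x) {I : Type*}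
    [Fintype I] {e : I → (H →L[ℂ] H)} (he : IsPart A e 1) (u : I → H) :
    ∃ w : I → H, (∀ i, e i (w i) = w i) ∧
      (∀ i, (‖w i‖ = 1 ∧ e i ≠ 0) ∨ (w i = 0 ∧ e i = 0)) ∧
      (∀ i k, ⟪u k, w i⟫_ℂ = 0) ∧ (∀ i k, ⟪x (u k), w i⟫_ℂ = 0) ∧
      (∀ i k, i ≠ k → ⟪x (w k), w i⟫_ℂ = 0) := by
  classical
  have key : ∀ s : Finset I, ∃ w : I → H, (∀ i, e i (w i) = w i) ∧
      (∀ i ∈ s, (‖w i‖ = 1 ∧ e i ≠ 0) ∨ (w i = 0 ∧ e i = 0)) ∧ (∀ i, i ∉ s → w i = 0) ∧
      (∀ i k, ⟪u k, w i⟫_ℂ = 0) ∧ (∀ i k, ⟪x (u k), w i⟫_ℂ = 0) ∧
      (∀ i k, i ≠ k → ⟪x (w k), w i⟫_ℂ = 0) := by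
    intro s
    induction s using Finset.induction_on with
    | empty =>
      exact ⟨fun _ => 0, by simp, by simp, by simp, by simp, by simp, by simp⟩
    | insert j s hj ih =>
      obtain ⟨w, h1, h2, h3, h4, h5, h6⟩ := ih
      by_cases hej : e j = 0
      · refine ⟨w, h1, ?_, ?_, h4, h5, h6⟩
        · intro i hi
          rw [Finset.mem_insert] at hi
          rcases hi with rfl | hi
          · exact Or.inr ⟨h3 i hj, hej⟩
          · exact h2 i hi
        · intro i hi
          rw [Finset.mem_insert, not_or] at hi
          exact h3 i hi.2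
      · set S : Finset H := Finset.univ.image u ∪ Finset.univ.image (fun k => x (u k))
          ∪ Finset.univ.image (fun k => x (w k)) with hS
        obtain ⟨v, hv1, hv2, hv3⟩ := exists_orth_unit hd S (e j) (he.mem j) (he.proj j) hej
        have hvu : ∀ k, ⟪u k, v⟫_ℂ = 0 := fun k => hv3 _ (by
          rw [hS]
          exact Finset.mem_union_left _ (Finset.mem_union_left _
            (Finset.mem_image_of_mem _ (Finset.mem_univ k))))
        have hvxu : ∀ k, ⟪x (u k), v⟫_ℂ = 0 := fun k => hv3 _ (by
          rw [hS]
          exact Finset.mem_union_left _ (Finset.mem_union_right _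
            (Finset.mem_image_of_mem (fun k => x (u k)) (Finset.mem_univ k))))
        have hvxw : ∀ k, ⟪x (w k), v⟫_ℂ = 0 := fun k => hv3 _ (by
          rw [hS]
          exact Finset.mem_union_right _
            (Finset.mem_image_of_mem (fun k => x (w k)) (Finset.mem_univ k)))
        refine ⟨Function.update w j v, ?_, ?_, ?_, ?_, ?_, ?_⟩
        · intro i
          by_cases hij : i = j
          · subst hij; simpa using hv2
          · simpa [Function.update_of_ne hij] using h1 i
        · intro i hi
          by_cases hij : i = j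
          · subst hij
            left
            simpa using ⟨hv1, hej⟩
          · rw [Finset.mem_insert] at hi
            rcases hi with hi | hi
            · exact absurd hi hij
            · simpa [Function.update_of_ne hij] using h2 i hi
        · intro i hi
          rw [Finset.mem_insert, not_or] at hi
          rw [Function.update_of_ne hi.1]
          exact h3 i hi.2
        · intro i k
          by_cases hij : i = j
          · subst hij; simpa using hvu k
          · simpa [Function.update_of_ne hij] using h4 i k
        · intro i k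
          by_cases hij : i = j
          · subst hij; simpa using hvxu k
          · simpa [Function.update_of_ne hij] using h5 i k
        · intro i k hik
          by_cases hij : i = j
          · subst hij
            have hki : k ≠ i := hik.symm
            rw [Function.update_self, Function.update_of_ne hki]
            exact hvxw k
          · rw [Function.update_of_ne hij]
            by_cases hkj : k = j
            · subst hkj
              rw [Function.update_self, inner_sa hx, ← inner_conj_symm, hvxw i]
              simp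
            · rw [Function.update_of_ne hkj]
              exact h6 i k hik
  obtain ⟨w, h1, h2, _, h4, h5, h6⟩ := key Finset.univ
  exact ⟨w, h1, fun i => h2 i (Finset.mem_univ i), h4, h5, h6⟩

end Vale.Agent.P078
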