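import Vale.Agent.P078.Transfer
import Vale.Agent.P078.Tilt

/-!
# P078: the boundary case `r * ε = 1` for diffuse MASAs of `B(H)`
-/

namespace Vale.Agent.P078

open scoped InnerProductSpace

variable {H : Type*} [NormedAddCommGroup H] [InnerProductSpace ℂ H] [CompleteSpace H]
variable {A : StarSubalgebra ℂ (H →L[ℂ] H)}

section lift

variable {I : Type*} [Fintype I] {b u : I → H}

lemma liftV_comp_liftW' [DecidableEq I] (ho : ∀ i k, i ≠ k → ⟪b i, b k⟫_ℂ = 0)
    (hn : ∀ i, ⟪b i, b i⟫_ℂ • u i = u i) :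
    (liftV b u) ∘L (liftW b u) = frameProj u := by
  ext ζ
  rw [ContinuousLinearMap.comp_apply, liftV_apply, liftW_apply, frameProj_apply]
  apply Finset.sum_congr rfl
  intro i _
  rw [inner_sum, Finset.sum_eq_single i]
  · rw [inner_smul_right, mul_smul, hn]
  · intro k _ hki
    rw [inner_smul_right, ho i k hki.symm, mul_zero]
  · intro h; exact absurd (Finset.mem_univ i) h

lemma norm_liftW_le' [DecidableEq I] (ho : ∀ i k, i ≠ k → ⟪b i, b k⟫_ℂ = 0)
    (hn : ∀ i, ⟪b i, b i⟫_ℂ • u i = u i)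
    (hq : IsStarProjection (frameProj u)) : ‖liftW b u‖ ≤ 1 := by
  apply ContinuousLinearMap.opNorm_le_bound _ zero_le_one
  intro ζ
  have h1 : ⟪liftW b u ζ, liftW b u ζ⟫_ℂ = ⟪ζ, frameProj u ζ⟫_ℂ := by
    rw [← liftV_comp_liftW' ho hn, ContinuousLinearMap.comp_apply, ← adjoint_liftW,
      ContinuousLinearMap.adjoint_inner_right]
  rw [proj_inner_self hq, inner_self_eq_norm_sq_to_K] at h1
  have h1' : ((‖liftW b u ζ‖ ^ 2 : ℝ) : ℂ) = ((‖frameProj u ζ‖ ^ 2 : ℝ) : ℂ) := by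
    rw [← h1]; push_cast; rfl
  have h2 : ‖liftW b u ζ‖ ^ 2 = ‖frameProj u ζ‖ ^ 2 := Complex.ofReal_injective h1'
  have h3 : ‖liftW b u ζ‖ = ‖frameProj u ζ‖ :=
    (pow_left_inj₀ (norm_nonneg _) (norm_nonneg _) two_ne_zero).mp h2
  rw [h3, one_mul]
  exact proj_norm_apply_le hq ζ

lemma norm_liftV_le' [DecidableEq I] (ho : ∀ i k, i ≠ k → ⟪b i, b k⟫_ℂ = 0)
    (hn : ∀ i, ⟪b i, b i⟫_ℂ • u i = u i)
    (hq : IsStarProjection (frameProj u)) : ‖liftV b u‖ ≤ 1 := by
  rw [← adjoint_liftW, LinearIsometryEquiv.norm_map]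
  exact norm_liftW_le' ho hn hq

lemma compress_eq_of_entries {D x : H →L[ℂ] H} {z : ℂ}
    (h : ∀ i k, ⟪b i, D (b k)⟫_ℂ = z * ⟪u i, x (u k)⟫_ℂ) :
    frameProj b * D * frameProj b = z • ((liftW b u) ∘L x ∘L (liftV b u)) := by
  ext ζ
  rw [mul_apply', mul_apply', frameProj_apply b (D _), frameProj_apply b ζ, smul_apply,
    ContinuousLinearMap.comp_apply, ContinuousLinearMap.comp_apply, liftW_apply, liftV_apply,
    Finset.smul_sum]
  apply Finset.sum_congr rfl
  intro i _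
  rw [smul_smul]
  congr 1
  rw [map_sum, map_sum, inner_sum, inner_sum, Finset.mul_sum]
  apply Finset.sum_congr rfl
  intro k _
  rw [map_smul, map_smul, inner_smul_right, inner_smul_right, h]
  ring

lemma norm_compress_of_entries [DecidableEq I] {D x : H →L[ℂ] H} {t : ℝ} (ht : 0 ≤ t)
    (h : ∀ i k, ⟪b i, D (b k)⟫_ℂ = (t : ℂ) * ⟪u i, x (u k)⟫_ℂ)
    (ho : ∀ i k, i ≠ k → ⟪b i, b k⟫_ℂ = 0) (hn : ∀ i, ⟪b i, b i⟫_ℂ • u i = u i)
    (hq : IsStarProjection (frameProj u)) :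
    ‖frameProj b * D * frameProj b‖ ≤ t * ‖x‖ := by
  rw [compress_eq_of_entries h, norm_smul, Complex.norm_real, Real.norm_eq_abs, abs_of_nonneg ht]
  apply mul_le_mul_of_nonneg_left _ ht
  have hV := norm_liftV_le' ho hn hq
  have hW := norm_liftW_le' ho hn hq
  calc ‖(liftW b u) ∘L x ∘L (liftV b u)‖ ≤ ‖liftW b u‖ * ‖x ∘L (liftV b u)‖ :=
        ContinuousLinearMap.opNorm_comp_le _ _
    _ ≤ ‖liftW b u‖ * (‖x‖ * ‖liftV b u‖) := by
        gcongr; exact ContinuousLinearMap.opNorm_comp_le _ _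
    _ ≤ 1 * (‖x‖ * 1) := by gcongr
    _ = ‖x‖ := by ring

end lift

lemma norm_smul_nrm (v : H) : ((‖v‖ : ℝ) : ℂ) • nrm v = v := by
  by_cases hv : v = 0
  · simp [hv, nrm]
  · have h0 : (‖v‖ : ℂ) ≠ 0 := by exact_mod_cast norm_ne_zero_iff.mpr hv
    rw [nrm, smul_smul]
    push_cast
    rw [mul_inv_cancel₀ h0, one_smul]

lemma nrm_smul_unit {t : ℝ} (ht : 0 < t) {v : H} (hv : ‖v‖ = 1) : nrm ((t : ℂ) • v) = v := by
  rw [nrm, norm_smul, hv, mul_one, Complex.norm_real, Real.norm_eq_abs, abs_of_pos ht, smul_smul]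
  have h0 : (t : ℂ) ≠ 0 := by exact_mod_cast ht.ne'
  push_cast
  rw [inv_mul_cancel₀ h0, one_smul]

/-- The tilted frame. -/
lemma tilted (hd : IsDiffuse A) {x : H →L[ℂ] H} (hx : IsSelfAdjoint x) {I : Type*} [Fintype I]
    {e : I → (H →L[ℂ] H)} (he : IsPart A e 1) (η : H) {α β : ℝ} (hα : 0 ≤ α) (hα1 : α ≤ 1)
    (hβ : 0 ≤ β) (hαβ : α ^ 2 + β ^ 2 = 1) :
    ∃ (η' : H) (c : H →L[ℂ] H), c ∈ A ∧ IsSelfAdjoint c ∧ ‖c‖ ≤ β ^ 2 * ‖x‖ ∧
      (∀ i, ‖e i η - e i η'‖ ≤ ((1 - α) + β) * ‖e i η‖) ∧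
      ‖frameProj (fun i => nrm (e i η')) * (x - c) * frameProj (fun i => nrm (e i η'))‖
        ≤ α ^ 2 * ‖x‖ := by
  classical
  set u : I → H := fun i => nrm (e i η) with hu
  obtain ⟨w₀, g1, g2, g4, g5, g6⟩ := exists_tilt hd hx he u
  set w : I → H := fun i => if e i η = 0 then 0 else w₀ i with hw
  have h1 : ∀ i, e i (w i) = w i := by
    intro i
    simp only [hw]
    split_ifs
    · simp
    · exact g1 i
  have h2 : ∀ i, (‖w i‖ = 1 ∧ e i η ≠ 0) ∨ (w i = 0 ∧ e i η = 0) := by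
    intro i
    simp only [hw]
    by_cases h : e i η = 0
    · right; simp [h]
    · left
      rw [if_neg h]
      refine ⟨?_, h⟩
      rcases g2 i with h' | h'
      · exact h'.1
      · exfalso; apply h; rw [h'.2]; simp
  have h4 : ∀ i k, ⟪u k, w i⟫_ℂ = 0 := by
    intro i k
    simp only [hw]
    split_ifs
    · simp
    · exact g4 i k
  have h5 : ∀ i k, ⟪x (u k), w i⟫_ℂ = 0 := by
    intro i k
    simp only [hw]
    split_ifs
    · simp
    · exact g5 i k
  have h6 : ∀ i k, i ≠ k → ⟪x (w k), w i⟫_ℂ = 0 := by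
    intro i k hik
    simp only [hw]
    split_ifs
    · simp
    · simp
    · simp
    · exact g6 i k hik
  have hew : ∀ i k, i ≠ k → e i (w k) = 0 := by
    intro i k hik
    rw [← h1 k, he.apply_apply_ne hik]
  set η' : H := (α : ℂ) • η + (β : ℂ) • ∑ k, ((‖e k η‖ : ℝ) : ℂ) • w k with hη'
  have E1 : ∀ i, e i η' = (α : ℂ) • e i η + (β : ℂ) • ((‖e i η‖ : ℝ) : ℂ) • w i := by
    intro i
    rw [hη', map_add, map_smul, map_smul, map_sum, Finset.sum_eq_single i]
    · rw [map_smul, h1]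
    · intro k _ hki
      rw [map_smul, hew i k hki.symm, smul_zero]
    · intro h; exact absurd (Finset.mem_univ i) h
  set u' : I → H := fun i => (α : ℂ) • u i + (β : ℂ) • w i with hu'
  have hun : ∀ i, e i η ≠ 0 → ‖u i‖ = 1 := by
    intro i hi
    rcases nrm_norm (e i η) with h | h
    · exact h
    · exfalso
      have h3 := inner_nrm_smul (e i η)
      rw [h] at h3
      simp at h3
      exact hi h3.symm
  have hu'n : ∀ i, e i η ≠ 0 → ‖u' i‖ = 1 := by
    intro i hi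
    have hw1 : ‖w i‖ = 1 := by
      rcases h2 i with h | h
      · exact h.1
      · exact absurd h.2 hi
    have h7 : ‖u' i‖ ^ 2 = 1 := by
      have h8 : ⟪(α : ℂ) • u i, (β : ℂ) • w i⟫_ℂ = 0 := by
        rw [inner_smul_left, inner_smul_right, h4]; simp
      have h9 := norm_add_sq_eq_norm_sq_add_norm_sq_of_inner_eq_zero (𝕜 := ℂ) _ _ h8
      rw [pow_two, hu', h9, norm_smul, norm_smul, hun i hi, hw1, Complex.norm_real,
        Complex.norm_real, Real.norm_eq_abs, Real.norm_eq_abs, abs_of_nonneg hα, abs_of_nonneg hβ]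
      nlinarith
    have h10 : 0 ≤ ‖u' i‖ := norm_nonneg _
    nlinarith
  have E2 : ∀ i, nrm (e i η') = u' i := by
    intro i
    by_cases hi : e i η = 0
    · have hw0 : w i = 0 := by
        rcases h2 i with h | h
        · exact absurd hi h.2
        · exact h.1
      rw [E1, hi, hu', hu]
      simp [hw0, hi, nrm]
    · have hpos : 0 < ‖e i η‖ := norm_pos_iff.mpr hi
      have h7 : e i η' = ((‖e i η‖ : ℝ) : ℂ) • u' i := by
        have hue : ((‖e i η‖ : ℝ) : ℂ) • u i = e i η := norm_smul_nrm _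
        rw [E1]
        show _ = ((‖e i η‖ : ℝ) : ℂ) • ((α : ℂ) • u i + (β : ℂ) • w i)
        rw [smul_add, smul_comm _ (α : ℂ) (u i), hue, smul_comm _ (β : ℂ) (w i)]
      rw [h7, nrm_smul_unit hpos (hu'n i hi)]
  have hfun : (fun i => nrm (e i η')) = u' := funext E2
  set y : I → ℝ := fun k => (⟪w k, x (w k)⟫_ℂ).re with hy
  have hyc : ∀ k, ⟪w k, x (w k)⟫_ℂ = (y k : ℂ) := fun k => inner_self_real hx (w k)
  have hwn : ∀ k, ‖w k‖ ≤ 1 := by
    intro k
    rcases h2 k with h | h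
    · exact h.1.le
    · rw [h.1]; simp
  have hyb : ∀ k, |y k| ≤ ‖x‖ := by
    intro k
    calc |y k| ≤ ‖⟪w k, x (w k)⟫_ℂ‖ := Complex.abs_re_le_norm _
      _ ≤ ‖w k‖ * ‖x (w k)‖ := norm_inner_le_norm _ _
      _ ≤ ‖w k‖ * (‖x‖ * ‖w k‖) := by gcongr; exact x.le_opNorm _
      _ ≤ 1 * (‖x‖ * 1) := by
          have := hwn k
          gcongr
      _ = ‖x‖ := by ring
  set c : H →L[ℂ] H := ∑ k, ((β ^ 2 * y k : ℝ) : ℂ) • e k with hc
  have hcA : c ∈ A := sum_mem fun k _ => A.smul_mem (he.mem k) _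
  have hcsa : IsSelfAdjoint c := by
    unfold IsSelfAdjoint
    rw [hc, star_sum]
    apply Finset.sum_congr rfl
    intro k _
    rw [star_smul, (he.proj k).isSelfAdjoint.star_eq]
    simp
  have hcn : ‖c‖ ≤ β ^ 2 * ‖x‖ := by
    apply he.norm_sum_smul_le _ (by positivity)
    intro k
    rw [Complex.norm_real, Real.norm_eq_abs, abs_mul, abs_of_nonneg (sq_nonneg β)]
    exact mul_le_mul_of_nonneg_left (hyb k) (sq_nonneg β)
  refine ⟨η', c, hcA, hcsa, hcn, ?_, ?_⟩
  · intro i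
    have h7 : e i η - e i η' = ((1 - α : ℝ) : ℂ) • e i η - (β : ℂ) • ((‖e i η‖ : ℝ) : ℂ) • w i := by
      rw [E1]
      push_cast
      rw [sub_smul, one_smul]
      abel
    rw [h7]
    calc _ ≤ ‖((1 - α : ℝ) : ℂ) • e i η‖ + ‖(β : ℂ) • ((‖e i η‖ : ℝ) : ℂ) • w i‖ := norm_sub_le _ _
      _ = (1 - α) * ‖e i η‖ + β * (‖e i η‖ * ‖w i‖) := by
          rw [norm_smul, norm_smul, norm_smul, Complex.norm_real, Complex.norm_real,
            Complex.norm_real, Real.norm_eq_abs, Real.norm_eq_abs, Real.norm_eq_abs,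
            abs_of_nonneg (by linarith : (0 : ℝ) ≤ 1 - α), abs_of_nonneg hβ, abs_norm]
      _ ≤ (1 - α) * ‖e i η‖ + β * (‖e i η‖ * 1) := by
          have := hwn i
          gcongr
      _ = ((1 - α) + β) * ‖e i η‖ := by ring
  · rw [hfun]
    have ho : ∀ i k, i ≠ k → ⟪u' i, u' k⟫_ℂ = 0 := by
      intro i k hik
      rw [← E2 i, ← E2 k]
      simp only [nrm]
      rw [inner_smul_left, inner_smul_right, he.inner_eq_zero hik]
      simp
    have hzero : ∀ i, e i η = 0 → u i = 0 ∧ w i = 0 ∧ u' i = 0 := by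
      intro i hi
      have hw0 : w i = 0 := by
        rcases h2 i with h | h
        · exact absurd hi h.2
        · exact h.1
      have hu0 : u i = 0 := by simp [hu, hi, nrm]
      exact ⟨hu0, hw0, by simp [hu', hu0, hw0]⟩
    have hself : ∀ i, e i η ≠ 0 → ⟪u' i, u' i⟫_ℂ = 1 := by
      intro i hi
      rw [inner_self_eq_norm_sq_to_K, hu'n i hi]
      simp
    have hn : ∀ i, ⟪u' i, u' i⟫_ℂ • u i = u i := by
      intro i
      by_cases hi : e i η = 0
      · rw [(hzero i hi).1, smul_zero]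
      · rw [hself i hi, one_smul]
    have hcu : ∀ k, c (u' k) = ((β ^ 2 * y k : ℝ) : ℂ) • u' k := by
      intro k
      rw [hc, sum_apply, Finset.sum_eq_single k]
      · rw [smul_apply, ← E2 k, apply_nrm he η' k k, if_pos rfl]
      · intro j _ hjk
        rw [smul_apply, ← E2 k, apply_nrm he η' j k, if_neg hjk, smul_zero]
      · intro h; exact absurd (Finset.mem_univ k) h
    have z1 : ∀ i k, ⟪u i, x (w k)⟫_ℂ = 0 := by
      intro i k
      rw [← inner_sa hx, h5]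
    have z2 : ∀ i k, ⟪w i, x (u k)⟫_ℂ = 0 := by
      intro i k
      rw [← inner_conj_symm, h5]; simp
    have z3 : ∀ i k, i ≠ k → ⟪w i, x (w k)⟫_ℂ = 0 := by
      intro i k hik
      rw [← inner_conj_symm, h6 i k hik]; simp
    have hxx : ∀ i k, ⟪u' i, x (u' k)⟫_ℂ
        = ((α ^ 2 : ℝ) : ℂ) * ⟪u i, x (u k)⟫_ℂ + ((β ^ 2 : ℝ) : ℂ) * ⟪w i, x (w k)⟫_ℂ := by
      intro i k
      simp only [hu']
      simp only [map_add, map_smul, inner_add_left, inner_add_right, inner_smul_left,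
        inner_smul_right, z1, z2, Complex.conj_ofReal]
      push_cast
      ring
    apply norm_compress_of_entries (u := u) (sq_nonneg α) _ ho hn (frame_nrm_proj he η)
    intro i k
    rw [sub_apply, inner_sub_right, hcu, inner_smul_right, hxx]
    by_cases hik : i = k
    · subst hik
      by_cases hi : e i η = 0
      · obtain ⟨q1, q2, q3⟩ := hzero i hi
        rw [q1, q2, q3]
        simp
      · rw [hself i hi, hyc]
        push_cast
        ring
    · rw [z3 i k hik, ho i k hik]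
      ring

/-- **Upper bound, boundary case included.** Over a diffuse MASA of `B(H)` every self-adjoint
operator is `(ε, r)` so-pavable as soon as `r * ε ≥ 1`. -/
theorem IsMASA.soPavable_of_diffuse_of_le (hA : IsMASA ⊤ A) (hd : IsDiffuse A) {x : H →L[ℂ] H}
    (hx : IsSelfAdjoint x) {r : ℕ} {ε : ℝ} (hε : 1 ≤ r * ε) : SoPavable ⊤ A x ε r := by
  classical
  have hr : 0 < r := by
    rcases Nat.eq_zero_or_pos r with h | h
    · rw [h] at hε; norm_num at hε
    · exact h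
  have hr' : (0 : ℝ) < r := by exact_mod_cast hr
  intro F δ hδ
  obtain ⟨η, I, _, e, he, hF⟩ := hA.exists_coarse F (half_pos hδ)
  choose! c hc using hF
  set K : ℝ := ∑ ξ ∈ F, ∑ i, ‖c ξ i‖ * ‖e i η‖ with hK
  have hK0 : 0 ≤ K := Finset.sum_nonneg fun ξ _ => Finset.sum_nonneg fun i _ => by positivity
  set β : ℝ := min (1 / 2) (δ / (4 * (K + 1))) with hβ
  have hβ0 : 0 < β := lt_min (by norm_num) (by positivity)
  have hβ1 : β ≤ 1 / 2 := min_le_left _ _
  have hβ2 : β ≤ δ / (4 * (K + 1)) := min_le_right _ _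
  set α : ℝ := Real.sqrt (1 - β ^ 2) with hα
  have hα0 : 0 ≤ α := Real.sqrt_nonneg _
  have hαsq : α ^ 2 = 1 - β ^ 2 := Real.sq_sqrt (by nlinarith)
  have hαβ : α ^ 2 + β ^ 2 = 1 := by rw [hαsq]; ring
  have hα1 : α ≤ 1 := by nlinarith
  have hα2 : 1 - α ≤ β := by nlinarith
  obtain ⟨η', b, hbA, hbsa, hbn, hclose, hcomp⟩ := tilted hd hx he η hα0 hα1 hβ0.le hαβ
  have hθ : 0 < β ^ 2 / r := by positivity
  obtain ⟨p, a₁, hp, ha₁A, ha₁sa, ha₁n, hmain⟩ := hA.core hd hx hr η' he hθ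
  set u : I → H := fun i => nrm (e i η') with hu
  set q := frameProj u with hq
  have hqp : IsStarProjection q := frame_nrm_proj he η'
  set a : H →L[ℂ] H := a₁ + ((1 / r : ℝ) : ℂ) • b with ha
  have haA : a ∈ A := add_mem ha₁A (A.smul_mem hbA _)
  have hasa : IsSelfAdjoint a := by
    apply ha₁sa.add
    unfold IsSelfAdjoint
    rw [star_smul, hbsa.star_eq]
    simp
  have hinv : (0 : ℝ) ≤ 1 / r := by positivity
  have han : ‖a‖ ≤ ‖x‖ := by
    calc ‖a‖ ≤ ‖a₁‖ + ‖((1 / r : ℝ) : ℂ) • b‖ := norm_add_le _ _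
      _ ≤ (1 - 1 / r) * ‖x‖ + 1 / r * (β ^ 2 * ‖x‖) := by
          rw [norm_smul, Complex.norm_real, Real.norm_eq_abs, abs_of_nonneg hinv]
          gcongr
      _ ≤ (1 - 1 / r) * ‖x‖ + 1 / r * (1 * ‖x‖) := by
          have : β ^ 2 ≤ 1 := by nlinarith
          gcongr
      _ = ‖x‖ := by ring
  refine ⟨p, a, q, hp.toPartitionIn, ⟨haA, hasa, han⟩, ⟨by trivial, hqp⟩, ?_, ?_⟩
  · intro ξ hξ
    set y := ∑ i, c ξ i • e i η with hy
    set y' := ∑ i, c ξ i • e i η' with hy'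
    have hqy : q y' = y' := by
      rw [hy', map_sum]
      apply Finset.sum_congr rfl
      intro i _
      rw [map_smul, hq, hu, frame_nrm_apply he η' i]
    have h1 : (1 - q) ξ = (1 - q) (ξ - y') := by
      simp [hqy]
    rw [h1]
    refine (proj_norm_apply_le hqp.one_sub _).trans_lt ?_
    have h2 : ‖y - y'‖ ≤ 2 * β * K := by
      have h3 : y - y' = ∑ i, c ξ i • (e i η - e i η') := by
        rw [hy, hy', ← Finset.sum_sub_distrib]
        apply Finset.sum_congr rfl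
        intro i _
        rw [smul_sub]
      rw [h3]
      calc ‖∑ i, c ξ i • (e i η - e i η')‖ ≤ ∑ i, ‖c ξ i • (e i η - e i η')‖ := norm_sum_le _ _
        _ ≤ ∑ i, 2 * β * (‖c ξ i‖ * ‖e i η‖) := by
            apply Finset.sum_le_sum
            intro i _
            rw [norm_smul]
            have h4 := hclose i
            have h5 : ((1 - α) + β) * ‖e i η‖ ≤ 2 * β * ‖e i η‖ := by
              apply mul_le_mul_of_nonneg_right _ (norm_nonneg _)
              linarith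
            calc ‖c ξ i‖ * ‖e i η - e i η'‖ ≤ ‖c ξ i‖ * (2 * β * ‖e i η‖) := by
                  apply mul_le_mul_of_nonneg_left (h4.trans h5) (norm_nonneg _)
              _ = 2 * β * (‖c ξ i‖ * ‖e i η‖) := by ring
        _ = 2 * β * ∑ i, ‖c ξ i‖ * ‖e i η‖ := by rw [Finset.mul_sum]
        _ ≤ 2 * β * K := by
            apply mul_le_mul_of_nonneg_left _ (by positivity)
            exact Finset.single_le_sum (f := fun ξ => ∑ i, ‖c ξ i‖ * ‖e i η‖)
              (fun ξ _ => Finset.sum_nonneg fun i _ => by positivity) hξ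
    have h6 : 2 * β * K < δ / 2 := by
      have h7 : β * (4 * (K + 1)) ≤ δ := by
        rwa [le_div_iff₀ (by positivity)] at hβ2
      nlinarith
    calc ‖ξ - y'‖ = ‖(ξ - y) + (y - y')‖ := by congr 1; abel
      _ ≤ ‖ξ - y‖ + ‖y - y'‖ := norm_add_le _ _
      _ < δ / 2 + δ / 2 := by
          have := hc ξ hξ
          linarith
      _ = δ := by ring
  · have hdec : q * (pinching p x - a) * q
        = q * (pinching p x - a₁ - ((1 / r : ℝ) : ℂ) • x) * q
          + ((1 / r : ℝ) : ℂ) • (q * (x - b) * q) := by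
      rw [ha]
      simp only [mul_sub, sub_mul, mul_add, add_mul, mul_smul_comm, smul_mul_assoc, smul_sub]
      abel
    rw [hdec]
    calc _ ≤ ‖q * (pinching p x - a₁ - ((1 / r : ℝ) : ℂ) • x) * q‖
          + ‖((1 / r : ℝ) : ℂ) • (q * (x - b) * q)‖ := norm_add_le _ _
      _ ≤ β ^ 2 / r * ‖x‖ + 1 / r * (α ^ 2 * ‖x‖) := by
          apply add_le_add hmain
          rw [norm_smul, Complex.norm_real, Real.norm_eq_abs, abs_of_nonneg hinv]
          gcongr
      _ = 1 / r * ‖x‖ := by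
          rw [hαsq]; ring
      _ ≤ ε * ‖x‖ := by
          apply mul_le_mul_of_nonneg_right _ (norm_nonneg _)
          rw [div_le_iff₀ hr']
          linarith

end Vale.Agent.P078
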