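import Vale.Agent.P078.Spectral

/-!
# P078: cyclic subspaces of a MASA of `B(H)` and coarse approximation of finitely many vectors
-/

namespace Vale.Agent.P078

open scoped InnerProductSpace

variable {H : Type*} [NormedAddCommGroup H] [InnerProductSpace ℂ H] [CompleteSpace H]

/-- The (non-closed) cyclic subspace `A η`. -/
def cyc0 (A : StarSubalgebra ℂ (H →L[ℂ] H)) (η : H) : Submodule ℂ H where
  carrier := {ξ | ∃ b ∈ A, b η = ξ}
  add_mem' := by
    rintro _ _ ⟨b, hb, rfl⟩ ⟨b', hb', rfl⟩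
    exact ⟨b + b', add_mem hb hb', by simp⟩
  zero_mem' := ⟨0, zero_mem A, by simp⟩
  smul_mem' := by
    rintro z _ ⟨b, hb, rfl⟩
    exact ⟨z • b, A.smul_mem hb z, by simp⟩

/-- The closed cyclic subspace generated by `η`. -/
def cyc (A : StarSubalgebra ℂ (H →L[ℂ] H)) (η : H) : Submodule ℂ H :=
  (cyc0 A η).topologicalClosure

instance (A : StarSubalgebra ℂ (H →L[ℂ] H)) (η : H) : (cyc A η).HasOrthogonalProjection := by
  unfold cyc; infer_instance

variable {A : StarSubalgebra ℂ (H →L[ℂ] H)}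

lemma mem_cyc0 {b : H →L[ℂ] H} (hb : b ∈ A) (η : H) : b η ∈ cyc0 A η := ⟨b, hb, rfl⟩

lemma cyc0_le_cyc (η : H) : cyc0 A η ≤ cyc A η := Submodule.le_topologicalClosure _

lemma self_mem_cyc (η : H) : η ∈ cyc A η := cyc0_le_cyc η ⟨1, one_mem A, by simp⟩

lemma cyc_invariant {a : H →L[ℂ] H} (ha : a ∈ A) (η : H) : ∀ x ∈ cyc A η, a x ∈ cyc A η := by
  apply map_topologicalClosure
  rintro _ ⟨b, hb, rfl⟩
  exact ⟨a * b, mul_mem ha hb, rfl⟩

/-- The cyclic projection. -/
noncomputable def cycProj (A : StarSubalgebra ℂ (H →L[ℂ] H)) (η : H) : H →L[ℂ] H :=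
  (cyc A η).starProjection

lemma cycProj_proj (η : H) : IsStarProjection (cycProj A η) := isStarProjection_starProjection

lemma IsMASA.cycProj_mem (hA : IsMASA ⊤ A) (η : H) : cycProj A η ∈ A :=
  hA.starProjection_mem fun _ ha => cyc_invariant ha η

lemma cycProj_apply_of_mem {η x : H} (hx : x ∈ cyc A η) : cycProj A η x = x :=
  Submodule.starProjection_eq_self_iff.mpr hx

lemma cycProj_apply_self (η : H) : cycProj A η η = η := cycProj_apply_of_mem (self_mem_cyc η)

lemma cycProj_apply_mem (η x : H) : cycProj A η x ∈ cyc A η :=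
  Submodule.starProjection_apply_mem _ _

/-- The vector state of `η` is faithful below the cyclic projection. -/
lemma IsMASA.mul_cycProj_eq_zero (hA : IsMASA ⊤ A) {f : H →L[ℂ] H} (hf : f ∈ A) {η : H}
    (h : f η = 0) : f * cycProj A η = 0 := by
  have hle : cyc A η ≤ f.ker := by
    apply Submodule.topologicalClosure_minimal
    · rintro _ ⟨b, hb, rfl⟩
      have h1 : f (b η) = (f * b) η := rfl
      have h2 : (b * f) η = b (f η) := rfl
      show f (b η) = 0
      rw [h1, hA.comm f hf b hb, h2, h, map_zero]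
    · exact f.isClosed_ker
  ext x
  exact hle (cycProj_apply_mem η x)

/-- Finitely many vectors lie in one closed cyclic subspace of a MASA of `B(H)`. -/
lemma IsMASA.exists_cyclic (hA : IsMASA ⊤ A) (F : Finset H) : ∃ η, ∀ ξ ∈ F, ξ ∈ cyc A η := by
  classical
  induction F using Finset.induction_on with
  | empty => exact ⟨0, by simp⟩
  | insert ξ F _ ih =>
    obtain ⟨η₀, h₀⟩ := ih
    set E := cycProj A η₀ with hE
    have hEA : E ∈ A := hA.cycProj_mem η₀
    set η := η₀ + (ξ - E ξ) with hη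
    have hEη : E η = η₀ := by
      rw [hη, map_add, map_sub, hE, cycProj_apply_self, proj_apply_apply (cycProj_proj η₀), sub_self,
        add_zero]
    have hle : cyc A η₀ ≤ cyc A η := by
      apply Submodule.topologicalClosure_mono
      rintro _ ⟨b, hb, rfl⟩
      refine ⟨b * E, mul_mem hb hEA, ?_⟩
      rw [mul_apply', hEη]
    refine ⟨η, ?_⟩
    intro ζ hζ
    rw [Finset.mem_insert] at hζ
    rcases hζ with rfl | hζ
    · have h1 : E ζ ∈ cyc A η := hle (cycProj_apply_mem η₀ ζ)
      have h2 : ζ - E ζ ∈ cyc A η := by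
        apply cyc0_le_cyc
        refine ⟨1 - E, sub_mem (one_mem A) hEA, ?_⟩
        rw [sub_apply, hEη, one_apply_eq_self, hη]
        abel
      have := add_mem h1 h2
      simpa using this
    · exact hle (h₀ ζ hζ)

lemma isPart_unit : IsPart A (fun _ : Unit => (1 : H →L[ℂ] H)) 1 where
  mem _ := one_mem A
  proj _ := IsStarProjection.one _
  orth i j hij := absurd (Subsingleton.elim i j) hij
  sum_eq := by simp

/-- A common partition for finitely many simple approximants. -/
lemma common_partition (hcomm : ∀ a ∈ A, ∀ b ∈ A, a * b = b * a) (η : H) (δ : ℝ) (F : Finset H)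
    (h : ∀ ξ ∈ F, ∃ s, IsSimple A s ∧ ‖ξ - s η‖ < δ) :
    ∃ (I : Type) (_ : Fintype I) (e : I → (H →L[ℂ] H)), IsPart A e 1 ∧
      ∀ ξ ∈ F, ∃ c : I → ℂ, ‖ξ - ∑ i, c i • e i η‖ < δ := by
  classical
  induction F using Finset.induction_on with
  | empty => exact ⟨Unit, inferInstance, _, isPart_unit, by simp⟩
  | insert ξ F _ ih =>
    obtain ⟨I, _, e, he, hF⟩ := ih (fun ζ hζ => h ζ (Finset.mem_insert_of_mem hζ))
    obtain ⟨s, ⟨I', _, e', c', he', rfl⟩, hs⟩ := h ξ (Finset.mem_insert_self _ _)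
    refine ⟨I × I', inferInstance, fun w => e w.1 * e' w.2, by simpa using he.prod hcomm he', ?_⟩
    intro ζ hζ
    rw [Finset.mem_insert] at hζ
    rcases hζ with rfl | hζ
    · refine ⟨fun w => c' w.2, ?_⟩
      convert hs using 3
      rw [Fintype.sum_prod_type, Finset.sum_comm]
      simp only [sum_apply, smul_apply]
      apply Finset.sum_congr rfl
      intro j _
      rw [← Finset.smul_sum]
      congr 1
      simp only [mul_apply']
      rw [he.sum_apply]
      simp
    · obtain ⟨c, hc⟩ := hF ζ hζ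
      refine ⟨fun w => c w.1, ?_⟩
      convert hc using 3
      rw [Fintype.sum_prod_type]
      apply Finset.sum_congr rfl
      intro i _
      show ∑ y, c i • (e i * e' y) η = c i • (e i) η
      rw [← Finset.smul_sum]
      congr 1
      simp only [mul_apply']
      rw [← map_sum, he'.sum_apply]
      simp

/-- Coarse approximation: finitely many vectors are approximated by combinations of `e i η`. -/
lemma IsMASA.exists_coarse (hA : IsMASA ⊤ A) (F : Finset H) {δ : ℝ} (hδ : 0 < δ) :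
    ∃ (η : H) (I : Type) (_ : Fintype I) (e : I → (H →L[ℂ] H)), IsPart A e 1 ∧
      ∀ ξ ∈ F, ∃ c : I → ℂ, ‖ξ - ∑ i, c i • e i η‖ < δ := by
  obtain ⟨η, hη⟩ := hA.exists_cyclic F
  refine ⟨η, common_partition hA.comm η δ F ?_⟩
  intro ξ hξ
  have h1 : ξ ∈ closure ((cyc0 A η : Submodule ℂ H) : Set H) := hη ξ hξ
  obtain ⟨y, ⟨b, hb, rfl⟩, hy⟩ := Metric.mem_closure_iff.mp h1 (δ / 2) (half_pos hδ)
  have hκ : 0 < δ / (2 * (‖η‖ + 1)) := by positivity
  obtain ⟨s, hs, hbs⟩ := hA.approx_simple hb hκ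
  refine ⟨s, hs, ?_⟩
  have h2 : ‖b η - s η‖ < δ / 2 := by
    have : b η - s η = (b - s) η := by simp
    rw [this]
    calc ‖(b - s) η‖ ≤ ‖b - s‖ * ‖η‖ := (b - s).le_opNorm η
      _ ≤ δ / (2 * (‖η‖ + 1)) * ‖η‖ := by gcongr
      _ < δ / 2 := by
          rw [div_mul_eq_mul_div, div_lt_div_iff₀ (by positivity) (by positivity)]
          nlinarith [norm_nonneg η]
  calc ‖ξ - s η‖ = ‖(ξ - b η) + (b η - s η)‖ := by congr 1; abel
    _ ≤ ‖ξ - b η‖ + ‖b η - s η‖ := norm_add_le _ _
    _ < δ / 2 + δ / 2 := by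
        rw [dist_eq_norm] at hy
        exact add_lt_add hy h2
    _ = δ := by ring

end Vale.Agent.P078
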