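import Mathlib

/-!
# P078: definitions for so-paving over a MASA

Operators on a complex Hilbert space `H` are `H →L[ℂ] H`; multiplication is composition and
`star` is the adjoint.
-/

namespace Vale.Agent.P078

variable {H : Type*} [NormedAddCommGroup H] [InnerProductSpace ℂ H] [CompleteSpace H]

/-- `A` is a maximal abelian self-adjoint subalgebra (MASA) of `M`: an abelian star-subalgebra
of `M` that equals its relative commutant in `M`. -/
structure IsMASA (M A : StarSubalgebra ℂ (H →L[ℂ] H)) : Prop where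
  le : A ≤ M
  comm : ∀ a ∈ A, ∀ b ∈ A, a * b = b * a
  maximal : ∀ x ∈ M, (∀ a ∈ A, a * x = x * a) → x ∈ A

/-- A partition in `A` with `r` pieces: mutually orthogonal projections of `A` with sum `1`
(zero pieces allowed). -/
structure IsPartitionIn (A : StarSubalgebra ℂ (H →L[ℂ] H)) {r : ℕ}
    (p : Fin r → (H →L[ℂ] H)) : Prop where
  mem : ∀ i, p i ∈ A
  proj : ∀ i, IsStarProjection (p i)
  orth : ∀ i j, i ≠ j → p i * p j = 0
  sum_eq_one : ∑ i, p i = 1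

/-- The pinching `S_P(x) = ∑ p_i x p_i`. -/
def pinching {r : ℕ} (p : Fin r → (H →L[ℂ] H)) (x : H →L[ℂ] H) : H →L[ℂ] H :=
  ∑ i, p i * x * p i

/-- `x` is `(ε, r)` so-pavable over `A` (inside `M`). -/
def SoPavable (M A : StarSubalgebra ℂ (H →L[ℂ] H)) (x : H →L[ℂ] H) (ε : ℝ) (r : ℕ) : Prop :=
  ∀ (F : Finset H) (δ : ℝ), 0 < δ →
    ∃ (p : Fin r → (H →L[ℂ] H)) (a q : H →L[ℂ] H),
      IsPartitionIn A p ∧
      (a ∈ A ∧ IsSelfAdjoint a ∧ ‖a‖ ≤ ‖x‖) ∧
      (q ∈ M ∧ IsStarProjection q) ∧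
      (∀ ξ ∈ F, ‖(1 - q) ξ‖ < δ) ∧
      ‖q * (pinching p x - a) * q‖ ≤ ε * ‖x‖

/-- `A` is diffuse: it has no minimal nonzero projection. -/
def IsDiffuse (A : StarSubalgebra ℂ (H →L[ℂ] H)) : Prop :=
  ∀ e ∈ A, IsStarProjection e → e ≠ 0 →
    ∃ f ∈ A, IsStarProjection f ∧ f * e = f ∧ f ≠ 0 ∧ f ≠ e

end Vale.Agent.P078
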