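import Vale.Agent.P078.DefsThin

/-!
# P078: normal `A`-central positive functionals
-/

namespace Vale.Agent.P078

variable {H : Type*} [NormedAddCommGroup H] [InnerProductSpace ℂ H] [CompleteSpace H]

/-- `φ` is a positive (bounded) linear functional on `B(H)`. -/
def IsPosFunctional (φ : (H →L[ℂ] H) →L[ℂ] ℂ) : Prop :=
  ∀ y : H →L[ℂ] H, 0 ≤ y → 0 ≤ (φ y).re ∧ (φ y).im = 0

/-- The restriction of `φ` to `M` is `A`-central. -/
def IsCentralOn (M A : StarSubalgebra ℂ (H →L[ℂ] H)) (φ : (H →L[ℂ] H) →L[ℂ] ℂ) : Prop :=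
  ∀ a ∈ A, ∀ m ∈ M, φ (a * m) = φ (m * a)

/-- The restriction of `φ` to `M` is normal: it is strongly continuous on the unit ball of `M`. -/
def IsNormalOn (M : StarSubalgebra ℂ (H →L[ℂ] H)) (φ : (H →L[ℂ] H) →L[ℂ] ℂ) : Prop :=
  ∀ ε : ℝ, 0 < ε → ∃ (F : Finset H) (δ : ℝ), 0 < δ ∧
    ∀ m ∈ M, ‖m‖ ≤ 1 → (∀ ζ ∈ F, ‖m ζ‖ < δ) → ‖φ m‖ < ε

/-- `M` has no nonzero normal `A`-central positive functional. -/
def NoCentralNormal (M A : StarSubalgebra ℂ (H →L[ℂ] H)) : Prop :=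
  ∀ φ : (H →L[ℂ] H) →L[ℂ] ℂ, IsPosFunctional φ → IsCentralOn M A φ → IsNormalOn M φ → φ 1 = 0

end Vale.Agent.P078
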