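import Vale.Agent.P078.Defs

/-!
# P078: the diagonal MASA of the `n × n` matrices
-/

namespace Vale.Agent.P078

/-- The diagonal MASA `D_n` of `B(ℂ^n) = M_n(ℂ)`: the operators on `EuclideanSpace ℂ (Fin n)`
commuting with all coordinate projections `|e_i⟩⟨e_i|`. -/
noncomputable def diagAlg (n : ℕ) :
    StarSubalgebra ℂ (EuclideanSpace ℂ (Fin n) →L[ℂ] EuclideanSpace ℂ (Fin n)) :=
  StarSubalgebra.centralizer ℂ (Set.range fun i : Fin n =>
    InnerProductSpace.rankOne ℂ (EuclideanSpace.single i (1 : ℂ)) (EuclideanSpace.single i (1 : ℂ)))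

end Vale.Agent.P078
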