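import Vale.Agent.P078.DefsThin

/-!
# P078: normal conditional expectations and normal representations of `B(K)`
-/

namespace Vale.Agent.P078

open scoped InnerProductSpace

variable {H : Type*} [NormedAddCommGroup H] [InnerProductSpace ℂ H] [CompleteSpace H]

/-- `E` restricts to a conditional expectation of `M` onto `A` (an `A`-bimodular norm-one
idempotent map; only the values of `E` on `M` matter) which is continuous at `1` along
projections of `M` converging strongly to `1`, as every normal conditional expectation is. -/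
structure IsNormalExpectation (M A : StarSubalgebra ℂ (H →L[ℂ] H))
    (E : (H →L[ℂ] H) →ₗ[ℂ] (H →L[ℂ] H)) : Prop where
  range : ∀ m ∈ M, E m ∈ A
  fix : ∀ a ∈ A, E a = a
  bimod : ∀ a ∈ A, ∀ m ∈ M, ∀ b ∈ A, E (a * m * b) = a * E m * b
  contr : ∀ m ∈ M, ‖E m‖ ≤ ‖m‖
  normal : ∀ (ξ : H) (η : ℝ), 0 < η → ∃ (F : Finset H) (δ : ℝ), 0 < δ ∧
    ∀ q ∈ M, IsStarProjection q → (∀ ζ ∈ F, ‖(1 - q) ζ‖ < δ) → ‖⟪ξ, E (1 - q) ξ⟫_ℂ‖ < η

/-- The unital star-homomorphism `π : B(K) → B(H)` is continuous at `1` along projections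
converging strongly to `1`, as every normal representation is. -/
def IsNormalRep {K : Type*} [NormedAddCommGroup K] [InnerProductSpace ℂ K] [CompleteSpace K]
    (π : (K →L[ℂ] K) →⋆ₐ[ℂ] (H →L[ℂ] H)) : Prop :=
  ∀ (ξ : H) (δ : ℝ), 0 < δ → ∃ (F₀ : Finset K) (δ₀ : ℝ), 0 < δ₀ ∧
    ∀ q : K →L[ℂ] K, IsStarProjection q → (∀ ζ ∈ F₀, ‖(1 - q) ζ‖ < δ₀) → ‖(1 - π q) ξ‖ < δ

end Vale.Agent.P078
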