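import Vale.Agent.P078.DefsNumber

/-!
# P078: paving of matrices over the diagonal
-/

namespace Vale.Agent.P078

variable {H : Type*} [NormedAddCommGroup H] [InnerProductSpace ℂ H] [CompleteSpace H]

/-- Every self-adjoint operator on `H` is `(ε, r)` so-pavable over `A`, inside `M = B(H)`. -/
def AllSoPavable (A : StarSubalgebra ℂ (H →L[ℂ] H)) (ε : ℝ) (r : ℕ) : Prop :=
  ∀ x : H →L[ℂ] H, IsSelfAdjoint x → SoPavable ⊤ A x ε r

/-- The operators that are diagonal for the family of vectors `b`: those commuting with all the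
rank one operators `|b i⟩⟨b i|`. -/
noncomputable def diagOf {ι : Type*} (b : ι → H) : StarSubalgebra ℂ (H →L[ℂ] H) :=
  StarSubalgebra.centralizer ℂ (Set.range fun i : ι => InnerProductSpace.rankOne ℂ (b i) (b i))

/-- Matrix paving with parameters `(ε, r)`: for every `n`, in every `n`-dimensional Hilbert space
with an orthonormal basis `b`, all self-adjoint operators (the self-adjoint `n × n` matrices) are
`(ε, r)` so-pavable over the diagonal operators `D_n`. -/
def MatrixPavable (ε : ℝ) (r : ℕ) : Prop :=
  ∀ (E : Type) [NormedAddCommGroup E] [InnerProductSpace ℂ E] [CompleteSpace E] (n : ℕ)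
    (b : OrthonormalBasis (Fin n) ℂ E), AllSoPavable (diagOf b) ε r

/-- The least `r ≥ 1` for which matrix paving holds with parameters `(ε, r)` in all sizes
(that is `sup_n n_{D_n ⊆ M_n}(ε)`), and `∞` if there is none. -/
noncomputable def matrixPavingNumber (ε : ℝ) : ℕ∞ :=
  sInf {m : ℕ∞ | ∃ r : ℕ, 1 ≤ r ∧ m = (r : ℕ∞) ∧ MatrixPavable ε r}

end Vale.Agent.P078
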