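import Vale.Agent.P078.Defs

/-!
# P078: the so-paving number
-/

namespace Vale.Agent.P078

variable {H : Type*} [NormedAddCommGroup H] [InnerProductSpace ℂ H] [CompleteSpace H]

/-- The so-paving number `n_{A ⊆ M}(ε)`: the least `r ≥ 1` such that every self-adjoint element
of `M` is `(ε, r)` so-pavable over `A`, and `∞` if there is no such `r`. -/
noncomputable def pavingNumber (M A : StarSubalgebra ℂ (H →L[ℂ] H)) (ε : ℝ) : ℕ∞ :=
  sInf {n : ℕ∞ | ∃ r : ℕ, 1 ≤ r ∧ n = (r : ℕ∞) ∧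
    ∀ x ∈ M, IsSelfAdjoint x → SoPavable M A x ε r}

end Vale.Agent.P078
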