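import Vale.Agent.P078.DefsNumber

/-!
# P078: von Neumann algebras and thin MASAs
-/

namespace Vale.Agent.P078

variable {H : Type*} [NormedAddCommGroup H] [InnerProductSpace ℂ H] [CompleteSpace H]

/-- `M` is a von Neumann algebra: it contains (hence equals) its double commutant. -/
def IsVN (M : StarSubalgebra ℂ (H →L[ℂ] H)) : Prop :=
  ∀ T : H →L[ℂ] H, (∀ S : H →L[ℂ] H, (∀ m ∈ M, S * m = m * S) → S * T = T * S) → T ∈ M

/-- `A` is thin in `M`: there are projections `q ∈ M` arbitrarily close to `1` in the strong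
operator topology that are cut to arbitrarily small norm by a finite partition in `A`. -/
def IsThin (M A : StarSubalgebra ℂ (H →L[ℂ] H)) : Prop :=
  ∀ (F : Finset H) (δ κ : ℝ), 0 < δ → 0 < κ →
    ∃ (q : H →L[ℂ] H) (n : ℕ) (f : Fin n → (H →L[ℂ] H)),
      (q ∈ M ∧ IsStarProjection q) ∧ IsPartitionIn A f ∧
      (∀ ξ ∈ F, ‖(1 - q) ξ‖ < δ) ∧ ∀ i, ‖q * f i * q‖ ≤ κ

/-- Every self-adjoint element of `M` is `(ε, r)` so-pavable over `A`. -/
def AllPavable (M A : StarSubalgebra ℂ (H →L[ℂ] H)) (ε : ℝ) (r : ℕ) : Prop :=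
  ∀ x ∈ M, IsSelfAdjoint x → SoPavable M A x ε r

end Vale.Agent.P078
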