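import Vale.Agent.P078.DefsCentral

/-!
# P078: so-paving in a corner `zMz`, `z` a projection of `A`
-/

namespace Vale.Agent.P078

variable {H : Type*} [NormedAddCommGroup H] [InnerProductSpace ℂ H] [CompleteSpace H]

/-- `x` (an element of the corner `zMz`) is `(ε, r)` so-pavable over `Az` inside `zMz`:
the definition of so-pavability with the unit `1` replaced by `z`. -/
def SoPavableUnder (M A : StarSubalgebra ℂ (H →L[ℂ] H)) (z x : H →L[ℂ] H) (ε : ℝ) (r : ℕ) :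
    Prop :=
  ∀ (F : Finset H) (δ : ℝ), 0 < δ →
    ∃ (p : Fin r → (H →L[ℂ] H)) (a q : H →L[ℂ] H),
      ((∀ i, p i ∈ A) ∧ (∀ i, IsStarProjection (p i)) ∧ (∀ i j, i ≠ j → p i * p j = 0) ∧
        ∑ i, p i = z) ∧
      (a ∈ A ∧ IsSelfAdjoint a ∧ ‖a‖ ≤ ‖x‖ ∧ z * a = a) ∧
      (q ∈ M ∧ IsStarProjection q ∧ z * q = q) ∧
      (∀ ξ ∈ F, ‖(z - q) ξ‖ < δ) ∧
      ‖q * (pinching p x - a) * q‖ ≤ ε * ‖x‖

/-- Every self-adjoint element of the corner `zMz` is `(ε, r)` so-pavable over `Az`. -/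
def AllPavableUnder (M A : StarSubalgebra ℂ (H →L[ℂ] H)) (z : H →L[ℂ] H) (ε : ℝ) (r : ℕ) : Prop :=
  ∀ x ∈ M, IsSelfAdjoint x → z * x * z = x → SoPavableUnder M A z x ε r

end Vale.Agent.P078
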