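import Vale.Agent.P078.Cyclic

/-!
# P078: a diffuse MASA of `B(H)` has partitions that are fine with respect to a given vector
-/

namespace Vale.Agent.P078

open scoped InnerProductSpace

variable {H : Type*} [NormedAddCommGroup H] [InnerProductSpace ℂ H] [CompleteSpace H]
variable {A : StarSubalgebra ℂ (H →L[ℂ] H)}

/-- Halving: below a projection charged by `η` there is one charged at most half as much. -/
lemma IsMASA.exists_half (hA : IsMASA ⊤ A) (hd : IsDiffuse A) (η : H) {f : H →L[ℂ] H}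
    (hf : f ∈ A) (hfp : IsStarProjection f) (hfη : f η ≠ 0) :
    ∃ f' ∈ A, IsStarProjection f' ∧ f' * f = f' ∧ f' η ≠ 0 ∧ ‖f' η‖ ^ 2 ≤ ‖f η‖ ^ 2 / 2 := by
  set E := cycProj A η with hE
  have hEA : E ∈ A := hA.cycProj_mem η
  have hEp : IsStarProjection E := cycProj_proj η
  set f₀ := f * E with hf₀
  have hf₀A : f₀ ∈ A := mul_mem hf hEA
  have hf₀p : IsStarProjection f₀ := hfp.mul hEp (hA.comm f hf E hEA)
  have hf₀η : f₀ η = f η := by rw [hf₀, mul_apply', hE, cycProj_apply_self]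
  have hf₀ne : f₀ ≠ 0 := by
    intro h
    apply hfη
    rw [← hf₀η, h]; simp
  have hf₀f : f₀ * f = f₀ := by
    rw [hf₀, mul_assoc, hA.comm E hEA f hf, ← mul_assoc, hfp.isIdempotentElem.eq]
  obtain ⟨f₁, hf₁A, hf₁p, hf₁f₀, hf₁ne, hf₁ne'⟩ := hd f₀ hf₀A hf₀p hf₀ne
  -- faithfulness
  have faithful : ∀ h ∈ A, h * f₀ = h → h η = 0 → h = 0 := by
    intro h hhA hh0 hhη
    have h1 := hA.mul_cycProj_eq_zero hhA hhη
    rw [← hh0, hf₀, hA.comm f hf E hEA, ← mul_assoc, h1, zero_mul]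
  have hf₁η : f₁ η ≠ 0 := fun h => hf₁ne (faithful f₁ hf₁A hf₁f₀ h)
  have hf₂A : f₀ - f₁ ∈ A := sub_mem hf₀A hf₁A
  have hf₂p : IsStarProjection (f₀ - f₁) := hf₁p.sub_of_mul_eq_left hf₀p hf₁f₀
  have hf₂f₀ : (f₀ - f₁) * f₀ = f₀ - f₁ := by
    rw [sub_mul, hf₀p.isIdempotentElem.eq, hf₁f₀]
  have hf₂η : (f₀ - f₁) η ≠ 0 := by
    intro h
    apply hf₁ne'
    have := faithful _ hf₂A hf₂f₀ h
    exact (sub_eq_zero.mp this).symm
  have hpyth : ‖f₁ η‖ ^ 2 + ‖(f₀ - f₁) η‖ ^ 2 = ‖f η‖ ^ 2 := by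
    have := (IsPart.pair hf₀A hf₀p hf₁A hf₁p hf₁f₀).sum_norm_sq η
    rw [Fintype.sum_bool] at this
    simp only [if_true] at this
    rw [← hf₀η, ← this]
    simp
  by_cases hcase : ‖f₁ η‖ ^ 2 ≤ ‖f η‖ ^ 2 / 2
  · refine ⟨f₁, hf₁A, hf₁p, ?_, hf₁η, hcase⟩
    rw [← hf₁f₀, mul_assoc, hf₀f]
  · refine ⟨f₀ - f₁, hf₂A, hf₂p, ?_, hf₂η, ?_⟩
    · rw [← hf₂f₀, mul_assoc, hf₀f]
    · push Not at hcase
      linarith

/-- Below a projection charged by `η` there are projections with arbitrarily small positive charge. -/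
lemma IsMASA.exists_small (hA : IsMASA ⊤ A) (hd : IsDiffuse A) (η : H) {R : H →L[ℂ] H}
    (hR : R ∈ A) (hRp : IsStarProjection R) (hRη : R η ≠ 0) {κ : ℝ} (hκ : 0 < κ) :
    ∃ f ∈ A, IsStarProjection f ∧ f * R = f ∧ f η ≠ 0 ∧ ‖f η‖ ^ 2 ≤ κ := by
  have step : ∀ m : ℕ, ∃ f ∈ A, IsStarProjection f ∧ f * R = f ∧ f η ≠ 0 ∧
      ‖f η‖ ^ 2 ≤ ‖R η‖ ^ 2 / 2 ^ m := by
    intro m
    induction m with
    | zero => exact ⟨R, hR, hRp, hRp.isIdempotentElem.eq, hRη, by simp⟩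
    | succ m ih =>
      obtain ⟨f, hf, hfp, hfR, hfη, hle⟩ := ih
      obtain ⟨f', hf', hf'p, hf'f, hf'η, hle'⟩ := hA.exists_half hd η hf hfp hfη
      refine ⟨f', hf', hf'p, ?_, hf'η, ?_⟩
      · rw [← hf'f, mul_assoc, hfR]
      · calc ‖f' η‖ ^ 2 ≤ ‖f η‖ ^ 2 / 2 := hle'
          _ ≤ (‖R η‖ ^ 2 / 2 ^ m) / 2 := by gcongr
          _ = ‖R η‖ ^ 2 / 2 ^ (m + 1) := by rw [div_div, ← pow_succ]
  obtain ⟨m, hm⟩ : ∃ m : ℕ, ‖R η‖ ^ 2 / 2 ^ m ≤ κ := by
    obtain ⟨k, hk⟩ := exists_nat_gt (‖R η‖ ^ 2 / κ)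
    refine ⟨k, ?_⟩
    have h2 : (k : ℝ) < 2 ^ k := by exact_mod_cast Nat.lt_two_pow_self
    rw [div_le_iff₀ (by positivity)]
    rw [div_lt_iff₀ hκ] at hk
    nlinarith
  obtain ⟨f, hf, hfp, hfR, hfη, hle⟩ := step m
  exact ⟨f, hf, hfp, hfR, hfη, hle.trans hm⟩

/-- The subspace of vectors fixed by `e`. -/
def fixedSub (e : H →L[ℂ] H) : Submodule ℂ H where
  carrier := {x | e x = x}
  add_mem' := by
    intro x y hx hy
    show e (x + y) = x + y
    rw [map_add, hx, hy]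
  zero_mem' := map_zero e
  smul_mem' := by
    intro z x hx
    show e (z • x) = z • x
    rw [map_smul, hx]

/-- `e` admits a finite partition in `A` into pieces of `η`-charge at most `κ`. -/
def Good (A : StarSubalgebra ℂ (H →L[ℂ] H)) (η : H) (κ : ℝ) (e : H →L[ℂ] H) : Prop :=
  ∃ (I : Type) (_ : Fintype I) (g : I → (H →L[ℂ] H)), IsPart A g e ∧ ∀ i, ‖g i η‖ ^ 2 ≤ κ

lemma isPart_single {f : H →L[ℂ] H} (hf : f ∈ A) (hfp : IsStarProjection f) :
    IsPart A (fun _ : Unit => f) f where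
  mem _ := hf
  proj _ := hfp
  orth i j hij := absurd (Subsingleton.elim i j) hij
  sum_eq := by simp

lemma good_single {η : H} {κ : ℝ} {f : H →L[ℂ] H} (hf : f ∈ A) (hfp : IsStarProjection f)
    (h : ‖f η‖ ^ 2 ≤ κ) : Good A η κ f :=
  ⟨Unit, inferInstance, _, isPart_single hf hfp, fun _ => h⟩

lemma Good.add {η : H} {κ : ℝ} {e e' : H →L[ℂ] H} (h : Good A η κ e) (h' : Good A η κ e')
    (hee' : e * e' = 0) : Good A η κ (e + e') := by
  obtain ⟨I, _, g, hg, hs⟩ := h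
  obtain ⟨I', _, g', hg', hs'⟩ := h'
  refine ⟨I ⊕ I', inferInstance, Sum.elim g g', hg.sum hg' hee', ?_⟩
  rintro (i | i)
  · exact hs i
  · exact hs' i

lemma Good.cut (hcomm : ∀ a ∈ A, ∀ b ∈ A, a * b = b * a) {η : H} {κ : ℝ} {e f : H →L[ℂ] H}
    (h : Good A η κ e) (hf : f ∈ A) (hfp : IsStarProjection f) : Good A η κ (e * f) := by
  obtain ⟨I, _, g, hg, hs⟩ := h
  refine ⟨I, inferInstance, fun i => g i * f, hg.cut hcomm hf hfp, ?_⟩
  intro i
  have h1 : (g i * f) η = f (g i η) := by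
    rw [hcomm _ (hg.mem i) _ hf]; rfl
  rw [h1]
  have := proj_norm_apply_le hfp (g i η)
  calc ‖f (g i η)‖ ^ 2 ≤ ‖g i η‖ ^ 2 := by gcongr
    _ ≤ κ := hs i

/-- A diffuse MASA of `B(H)` has finite partitions of `1` into pieces of small `η`-charge. -/
theorem IsMASA.exists_fine (hA : IsMASA ⊤ A) (hd : IsDiffuse A) (η : H) {κ : ℝ} (hκ : 0 < κ) :
    ∃ (I : Type) (_ : Fintype I) (g : I → (H →L[ℂ] H)), IsPart A g 1 ∧ ∀ i, ‖g i η‖ ^ 2 ≤ κ := by
  classical
  let 𝒢 := {e : H →L[ℂ] H // Good A η κ e}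
  have hgA : ∀ e : 𝒢, e.1 ∈ A := fun e => by
    obtain ⟨I, _, g, hg, _⟩ := e.2
    exact hg.mem_total
  have hgp : ∀ e : 𝒢, IsStarProjection e.1 := fun e => by
    obtain ⟨I, _, g, hg, _⟩ := e.2
    exact hg.total_proj
  have : Nonempty 𝒢 :=
    ⟨⟨0, good_single (zero_mem A) (IsStarProjection.zero _) (by simpa using hκ.le)⟩⟩
  let S : 𝒢 → Submodule ℂ H := fun e => fixedSub e.1
  have hdir : Directed (· ≤ ·) S := by
    intro e₁ e₂
    have c12 : e₁.1 * e₂.1 = e₂.1 * e₁.1 := hA.comm _ (hgA e₁) _ (hgA e₂)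
    have i1 : e₁.1 * e₁.1 = e₁.1 := (hgp e₁).isIdempotentElem.eq
    have i2 : e₂.1 * e₂.1 = e₂.1 := (hgp e₂).isIdempotentElem.eq
    have hgood : Good A η κ (e₁.1 + e₂.1 * (1 - e₁.1)) := by
      apply e₁.2.add (e₂.2.cut hA.comm (sub_mem (one_mem A) (hgA e₁)) (hgp e₁).one_sub)
      rw [← mul_assoc, c12, mul_assoc, mul_sub, mul_one, i1, sub_self, mul_zero]
    refine ⟨⟨_, hgood⟩, ?_, ?_⟩
    · intro x hx
      have hx' : e₁.1 x = x := hx
      show (e₁.1 + e₂.1 * (1 - e₁.1)) x = x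
      simp [hx']
    · intro x hx
      have hx' : e₂.1 x = x := hx
      have h3 : e₂.1 (e₁.1 x) = e₁.1 x := by
        have : (e₂.1 * e₁.1) x = (e₁.1 * e₂.1) x := by rw [c12]
        simp only [mul_apply', hx'] at this
        exact this
      show (e₁.1 + e₂.1 * (1 - e₁.1)) x = x
      simp [hx', h3]
  set L : Submodule ℂ H := (⨆ e, S e).topologicalClosure with hL
  have hLinv : ∀ a ∈ A, ∀ x ∈ L, a x ∈ L := by
    intro a ha
    apply map_topologicalClosure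
    intro x hx
    rw [Submodule.mem_iSup_of_directed S hdir] at hx ⊢
    obtain ⟨e, he⟩ := hx
    refine ⟨e, ?_⟩
    have he' : e.1 x = x := he
    show e.1 (a x) = a x
    have : (e.1 * a) x = (a * e.1) x := by rw [hA.comm _ (hgA e) _ ha]
    simpa [mul_apply', he'] using this
  have hEA : L.starProjection ∈ A := hA.starProjection_mem hLinv
  have hEp : IsStarProjection L.starProjection := isStarProjection_starProjection
  have hRη : (1 - L.starProjection) η = 0 := by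
    by_contra hne
    obtain ⟨f, hf, hfp, hfR, hfη, hle⟩ :=
      hA.exists_small hd η (sub_mem (one_mem A) hEA) hEp.one_sub hne hκ
    have hfL : ∀ x, f x ∈ L := by
      intro x
      apply Submodule.le_topologicalClosure
      apply Submodule.mem_iSup_of_mem ⟨f, good_single hf hfp hle⟩
      exact proj_apply_apply hfp x
    have h1 : L.starProjection * f = f := by
      ext x
      exact Submodule.starProjection_eq_self_iff.mpr (hfL x)
    have h2 : f = 0 := by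
      calc f = f * (1 - L.starProjection) := hfR.symm
        _ = f - f * L.starProjection := by rw [mul_sub, mul_one]
        _ = f - L.starProjection * f := by rw [hA.comm f hf _ hEA]
        _ = 0 := by rw [h1, sub_self]
    apply hfη
    rw [h2]; simp
  have hηL : η ∈ L := by
    apply Submodule.starProjection_eq_self_iff.mp
    have : η - L.starProjection η = 0 := by simpa using hRη
    exact (sub_eq_zero.mp this).symm
  have hηcl : η ∈ closure ((⨆ e, S e : Submodule ℂ H) : Set H) := hηL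
  obtain ⟨y, hy, hdist⟩ := Metric.mem_closure_iff.mp hηcl (Real.sqrt κ) (Real.sqrt_pos.mpr hκ)
  have hy' : y ∈ (⨆ e, S e : Submodule ℂ H) := hy
  rw [Submodule.mem_iSup_of_directed S hdir] at hy'
  obtain ⟨e, he⟩ := hy'
  have he' : e.1 y = y := he
  have hsmall : ‖(1 - e.1) η‖ ^ 2 ≤ κ := by
    have h1 : (1 - e.1) η = (1 - e.1) (η - y) := by
      simp [he']
    have h2 : ‖(1 - e.1) η‖ ≤ ‖η - y‖ := by
      rw [h1]; exact proj_norm_apply_le (hgp e).one_sub _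
    rw [dist_eq_norm] at hdist
    calc ‖(1 - e.1) η‖ ^ 2 ≤ (Real.sqrt κ) ^ 2 := by
          have := h2.trans hdist.le
          gcongr
      _ = κ := Real.sq_sqrt hκ.le
  have hfinal : Good A η κ (e.1 + (1 - e.1)) := by
    apply e.2.add (good_single (sub_mem (one_mem A) (hgA e)) (hgp e).one_sub hsmall)
    rw [mul_sub, mul_one, (hgp e).isIdempotentElem.eq, sub_self]
  have h1 : e.1 + (1 - e.1) = 1 := by abel
  rw [h1] at hfinal
  exact hfinal

end Vale.Agent.P078
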