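import Vale.Agent.P078.TwoSided
import Vale.Agent.P078.Boundary

/-!
# P078: the exact so-paving number of a diffuse MASA of `B(H)`
-/

namespace Vale.Agent.P078

open scoped InnerProductSpace

variable {H : Type*} [NormedAddCommGroup H] [InnerProductSpace ℂ H] [CompleteSpace H]
variable {A : StarSubalgebra ℂ (H →L[ℂ] H)}

theorem IsMASA.all_soPavable_iff [Nontrivial H] (hA : IsMASA ⊤ A) (hd : IsDiffuse A) {ε : ℝ}
    (hε : 0 < ε) (r : ℕ) :
    (∀ x : H →L[ℂ] H, IsSelfAdjoint x → SoPavable ⊤ A x ε r) ↔ 1 ≤ r * ε := by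
  constructor
  · intro h
    obtain ⟨f, hf⟩ := exists_unit_vector (H := H)
    exact hA.one_le_of_soPavable_refl hd hf hε.le (h _ (refl_sa f))
  · intro h x hx
    exact hA.soPavable_of_diffuse_of_le hd hx h

theorem IsMASA.pavingNumber_eq [Nontrivial H] (hA : IsMASA ⊤ A) (hd : IsDiffuse A) {ε : ℝ}
    (hε : 0 < ε) : pavingNumber ⊤ A ε = ((⌈1 / ε⌉₊ : ℕ) : ℕ∞) := by
  apply le_antisymm
  · apply sInf_le
    have h1 : 1 / ε ≤ (⌈1 / ε⌉₊ : ℝ) := Nat.le_ceil _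
    have h0 : 0 < 1 / ε := by positivity
    refine ⟨⌈1 / ε⌉₊, Nat.ceil_pos.mpr h0, rfl, ?_⟩
    intro x _ hx
    apply hA.soPavable_of_diffuse_of_le hd hx
    rwa [div_le_iff₀ hε] at h1
  · exact (hA.pavingNumber_bounds hd hε).1

end Vale.Agent.P078
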