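import Vale.Agent.P078.Proj

/-!
# P078: finite rank projections given by orthonormal systems, and matrix entries of pinchings
-/

namespace Vale.Agent.P078

open scoped InnerProductSpace

variable {H : Type*} [NormedAddCommGroup H] [InnerProductSpace ℂ H] [CompleteSpace H]

/-- The operator `∑ |u i⟩⟨u i|`. -/
noncomputable def frameProj {I : Type*} [Fintype I] (u : I → H) : H →L[ℂ] H :=
  ∑ i, InnerProductSpace.rankOne ℂ (u i) (u i)

section frame

variable {I : Type*} [Fintype I] (u : I → H)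

lemma frameProj_apply (ζ : H) : frameProj u ζ = ∑ i, ⟪u i, ζ⟫_ℂ • u i := by
  simp [frameProj]

lemma frameProj_sa : IsSelfAdjoint (frameProj u) := by
  unfold IsSelfAdjoint frameProj
  rw [star_sum]
  apply Finset.sum_congr rfl
  intro i _
  rw [ContinuousLinearMap.star_eq_adjoint, InnerProductSpace.adjoint_rankOne]

lemma frameProj_isStarProjection (ho : ∀ i k, i ≠ k → ⟪u i, u k⟫_ℂ = 0)
    (hn : ∀ i, ‖u i‖ = 1 ∨ u i = 0) : IsStarProjection (frameProj u) := by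
  classical
  refine ⟨?_, frameProj_sa u⟩
  unfold IsIdempotentElem
  ext ζ
  rw [mul_apply', frameProj_apply u (frameProj u ζ), frameProj_apply u ζ]
  apply Finset.sum_congr rfl
  intro i _
  rw [inner_sum, Finset.sum_eq_single i]
  · rw [inner_smul_right]
    rcases hn i with h | h
    · rw [inner_self_eq_norm_sq_to_K, h]; simp
    · rw [h]; simp
  · intro k _ hki
    rw [inner_smul_right, ho i k hki.symm, mul_zero]
  · intro h; exact absurd (Finset.mem_univ i) h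

lemma norm_compress_le (hu : ∀ i, ‖u i‖ ≤ 1) (D : H →L[ℂ] H) :
    ‖frameProj u * D * frameProj u‖ ≤ ∑ i, ∑ k, ‖⟪u i, D (u k)⟫_ℂ‖ := by
  apply ContinuousLinearMap.opNorm_le_bound _
    (Finset.sum_nonneg fun i _ => Finset.sum_nonneg fun k _ => norm_nonneg _)
  intro ζ
  have h1 : (frameProj u * D * frameProj u) ζ
      = ∑ i, ∑ k, (⟪u k, ζ⟫_ℂ * ⟪u i, D (u k)⟫_ℂ) • u i := by
    rw [mul_apply', mul_apply', frameProj_apply u (D _), frameProj_apply u ζ]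
    apply Finset.sum_congr rfl
    intro i _
    rw [map_sum, inner_sum, Finset.sum_smul]
    apply Finset.sum_congr rfl
    intro k _
    rw [map_smul, inner_smul_right]
  rw [h1, Finset.sum_mul]
  refine (norm_sum_le _ _).trans (Finset.sum_le_sum fun i _ => ?_)
  rw [Finset.sum_mul]
  refine (norm_sum_le _ _).trans (Finset.sum_le_sum fun k _ => ?_)
  rw [norm_smul, norm_mul]
  have h2 : ‖⟪u k, ζ⟫_ℂ‖ ≤ ‖ζ‖ := by
    calc ‖⟪u k, ζ⟫_ℂ‖ ≤ ‖u k‖ * ‖ζ‖ := norm_inner_le_norm _ _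
      _ ≤ 1 * ‖ζ‖ := by gcongr; exact hu k
      _ = ‖ζ‖ := one_mul _
  calc ‖⟪u k, ζ⟫_ℂ‖ * ‖⟪u i, D (u k)⟫_ℂ‖ * ‖u i‖
      ≤ ‖ζ‖ * ‖⟪u i, D (u k)⟫_ℂ‖ * 1 := by
        gcongr
        exact hu i
    _ = ‖⟪u i, D (u k)⟫_ℂ‖ * ‖ζ‖ := by ring

end frame

section entries

variable {A : StarSubalgebra ℂ (H →L[ℂ] H)} {W : Type*} [Fintype W]
  {G : W → (H →L[ℂ] H)}

/-- Matrix entries of `x` expanded along a partition of `1`. -/
lemma inner_expand (hG : IsPart A G 1) (x : H →L[ℂ] H) (ζ' ζ : H) :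
    ⟪ζ', x ζ⟫_ℂ = ∑ w, ∑ w', ⟪G w ζ', x (G w' ζ)⟫_ℂ := by
  have h1 : ζ = ∑ w', G w' ζ := by rw [hG.sum_apply]; simp
  have h2 : ζ' = ∑ w, G w ζ' := by rw [hG.sum_apply]; simp
  conv_lhs => rw [h1, h2]
  rw [sum_inner]
  apply Finset.sum_congr rfl
  intro w _
  rw [map_sum, inner_sum]

/-- Matrix entries of the pinching along the partition obtained from a colouring. -/
lemma inner_pinching_colour [DecidableEq W] (hG : IsPart A G 1) {r : ℕ} (c : W → Fin r)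
    (x : H →L[ℂ] H) (ζ' ζ : H) :
    ⟪ζ', pinching (fun j : Fin r => ∑ w, if c w = j then G w else 0) x ζ⟫_ℂ
      = ∑ w, ∑ w', (if c w = c w' then (1 : ℂ) else 0) * ⟪G w ζ', x (G w' ζ)⟫_ℂ := by
  have hp := hG.colour c
  unfold pinching
  have h1 : ∀ (j : Fin r) (y : H), (∑ w, if c w = j then G w else 0) y
      = ∑ w, (if c w = j then (1 : ℂ) else 0) • G w y := by
    intro j y
    rw [sum_apply]
    apply Finset.sum_congr rfl
    intro w _
    split_ifs <;> simp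
  rw [sum_apply, inner_sum]
  have h2 : ∀ j : Fin r,
      ⟪ζ', ((∑ w, if c w = j then G w else 0) * x * (∑ w, if c w = j then G w else 0)) ζ⟫_ℂ
      = ∑ w, ∑ w', ((if c w = j then (1 : ℂ) else 0) * (if c w' = j then (1 : ℂ) else 0))
          * ⟪G w ζ', x (G w' ζ)⟫_ℂ := by
    intro j
    rw [mul_apply', mul_apply', ← inner_sa (hp.proj j).isSelfAdjoint, h1, h1, sum_inner]
    apply Finset.sum_congr rfl
    intro w _
    rw [map_sum, inner_sum]
    apply Finset.sum_congr rfl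
    intro w' _
    rw [map_smul, inner_smul_left, inner_smul_right]
    split_ifs <;> simp
  simp_rw [h2]
  rw [Finset.sum_comm]
  apply Finset.sum_congr rfl
  intro w _
  rw [Finset.sum_comm]
  apply Finset.sum_congr rfl
  intro w' _
  rw [← Finset.sum_mul]
  congr 1
  by_cases h : c w = c w'
  · simp [h]
  · simp only [h, if_false]
    apply Finset.sum_eq_zero
    intro j _
    by_cases h1 : c w = j
    · have h2 : c w' ≠ j := fun h2 => h (h1.trans h2.symm)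
      simp [h2]
    · simp [h1]

/-- Bessel type bound for the entries along a partition that is fine for `ζ'`. -/
lemma sum_norm_sq_entries_le (hG : IsPart A G 1) (x : H →L[ℂ] H) (ζ' ζ : H) {κ : ℝ}
    (hκ0 : 0 ≤ κ) (hκ : ∀ w, ‖G w ζ'‖ ^ 2 ≤ κ) :
    ∑ w, ∑ w', ‖⟪G w ζ', x (G w' ζ)⟫_ℂ‖ ^ 2 ≤ κ * (‖x‖ ^ 2 * ‖ζ‖ ^ 2) := by
  rw [Finset.sum_comm]
  have h1 : ∀ w', ∑ w, ‖⟪G w ζ', x (G w' ζ)⟫_ℂ‖ ^ 2 ≤ κ * (‖x‖ ^ 2 * ‖G w' ζ‖ ^ 2) := by
    intro w'
    set y := x (G w' ζ) with hy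
    calc ∑ w, ‖⟪G w ζ', y⟫_ℂ‖ ^ 2 ≤ ∑ w, κ * ‖G w y‖ ^ 2 := by
          apply Finset.sum_le_sum
          intro w _
          have e1 : ⟪G w ζ', y⟫_ℂ = ⟪G w ζ', G w y⟫_ℂ := by
            rw [← inner_sa (hG.proj w).isSelfAdjoint, proj_apply_apply (hG.proj w)]
          rw [e1]
          calc ‖⟪G w ζ', G w y⟫_ℂ‖ ^ 2 ≤ (‖G w ζ'‖ * ‖G w y‖) ^ 2 := by
                have := norm_inner_le_norm (𝕜 := ℂ) (G w ζ') (G w y)
                gcongr
            _ = ‖G w ζ'‖ ^ 2 * ‖G w y‖ ^ 2 := by ring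
            _ ≤ κ * ‖G w y‖ ^ 2 := by
                have := hκ w
                gcongr
      _ = κ * ‖y‖ ^ 2 := by
          rw [← Finset.mul_sum, hG.sum_norm_sq]; simp
      _ ≤ κ * (‖x‖ ^ 2 * ‖G w' ζ‖ ^ 2) := by
          have : ‖y‖ ≤ ‖x‖ * ‖G w' ζ‖ := x.le_opNorm _
          have h2 : ‖y‖ ^ 2 ≤ (‖x‖ * ‖G w' ζ‖) ^ 2 := by gcongr
          rw [mul_pow] at h2
          gcongr
  calc ∑ w', ∑ w, ‖⟪G w ζ', x (G w' ζ)⟫_ℂ‖ ^ 2
      ≤ ∑ w', κ * (‖x‖ ^ 2 * ‖G w' ζ‖ ^ 2) := Finset.sum_le_sum fun w' _ => h1 w'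
    _ = κ * (‖x‖ ^ 2 * ‖ζ‖ ^ 2) := by
        rw [← Finset.mul_sum, ← Finset.mul_sum, hG.sum_norm_sq]; simp

end entries

end Vale.Agent.P078
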