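import Vale.Agent.P078.Diffuse
import Vale.Agent.P078.Frame

/-!
# P078: the lower bound for diffuse MASAs of `B(H)`: reflections need `r ≥ 1/ε` pieces
-/

namespace Vale.Agent.P078

open scoped InnerProductSpace

variable {H : Type*} [NormedAddCommGroup H] [InnerProductSpace ℂ H] [CompleteSpace H]
variable {A : StarSubalgebra ℂ (H →L[ℂ] H)}

/-- The self-adjoint unitary `2 |f⟩⟨f| - 1`. -/
noncomputable def refl (f : H) : H →L[ℂ] H :=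
  (2 : ℂ) • InnerProductSpace.rankOne ℂ f f - 1

lemma refl_apply (f ζ : H) : refl f ζ = (2 * ⟪f, ζ⟫_ℂ) • f - ζ := by
  simp [refl, smul_smul]

lemma refl_sa (f : H) : IsSelfAdjoint (refl f) := by
  unfold IsSelfAdjoint refl
  rw [star_sub, star_smul, ContinuousLinearMap.star_eq_adjoint, InnerProductSpace.adjoint_rankOne]
  simp

lemma refl_norm_le {f : H} (hf : ‖f‖ = 1) : ‖refl f‖ ≤ 1 := by
  have hR : IsStarProjection (InnerProductSpace.rankOne ℂ f f) :=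
    InnerProductSpace.isStarProjection_rankOne_self hf
  have hP := IsPart.pair (A := (⊤ : StarSubalgebra ℂ (H →L[ℂ] H))) (e := 1) (by trivial)
    (IsStarProjection.one _) (by trivial) hR (mul_one _)
  have h1 := hP.norm_sum_smul_le (fun b : Bool => if b then (1 : ℂ) else -1) zero_le_one
    (by intro b; cases b <;> simp)
  have h2 : ∑ b : Bool, (if b then (1 : ℂ) else -1) •
      (if b then InnerProductSpace.rankOne ℂ f f else 1 - InnerProductSpace.rankOne ℂ f f)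
      = refl f := by
    rw [Fintype.sum_bool]
    simp only [if_true, refl]
    simp only [Bool.false_eq_true, if_false, one_smul, neg_smul, two_smul]
    abel
  rwa [h2] at h1

/-- Quadratic form of a pinching of a reflection. -/
lemma inner_pinching_refl {r : ℕ} {p : Fin r → (H →L[ℂ] H)} (hp : IsPart A p 1) (f ζ : H) :
    ⟪ζ, pinching p (refl f) ζ⟫_ℂ
      = ((2 * ∑ j, ‖⟪p j f, ζ⟫_ℂ‖ ^ 2 - ‖ζ‖ ^ 2 : ℝ) : ℂ) := by
  unfold pinching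
  rw [sum_apply, inner_sum]
  have h1 : ∀ j, ⟪ζ, (p j * refl f * p j) ζ⟫_ℂ
      = ((2 * ‖⟪p j f, ζ⟫_ℂ‖ ^ 2 - ‖p j ζ‖ ^ 2 : ℝ) : ℂ) := by
    intro j
    rw [mul_apply', mul_apply', ← inner_sa (hp.proj j).isSelfAdjoint, refl_apply, inner_sub_right,
      inner_smul_right, inner_self_eq_norm_sq_to_K, ← inner_sa (hp.proj j).isSelfAdjoint f ζ]
    have h2 : ⟪p j ζ, f⟫_ℂ = (starRingEnd ℂ) ⟪p j f, ζ⟫_ℂ := by
      rw [inner_conj_symm, inner_sa (hp.proj j).isSelfAdjoint]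
    rw [h2, mul_assoc, Complex.mul_conj']
    push_cast
    rfl
  simp_rw [h1]
  rw [← Complex.ofReal_sum]
  congr 1
  rw [Finset.sum_sub_distrib, hp.sum_norm_sq, Finset.mul_sum]
  simp

/-- The diagonal of an element of `A` along a partition in `A`. -/
lemma inner_diag (hcomm : ∀ a ∈ A, ∀ b ∈ A, a * b = b * a) {I : Type*} [Fintype I]
    {g : I → (H →L[ℂ] H)} (hg : IsPart A g 1) {a : H →L[ℂ] H} (ha : a ∈ A) (f : H) :
    ⟪f, a f⟫_ℂ = ∑ i, ⟪g i f, a (g i f)⟫_ℂ := by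
  classical
  rw [inner_expand hg a f f]
  apply Finset.sum_congr rfl
  intro i _
  rw [Finset.sum_eq_single i]
  · intro k _ hki
    have h1 : a (g k f) = g k (a f) := by
      have : (a * g k) f = (g k * a) f := by rw [hcomm a ha _ (hg.mem k)]
      exact this
    rw [h1, hg.inner_eq_zero hki.symm]
  · intro h; exact absurd (Finset.mem_univ i) h

/-- If `q` almost fixes `ζ`, the quadratic form of `y` at `ζ` is controlled by `q y q`. -/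
lemma norm_inner_le_of_compress {q y : H →L[ℂ] H} (hq : IsStarProjection q) {ζ : H} {δ Y E : ℝ}
    (hδ : ‖(1 - q) ζ‖ ≤ δ) (hY : ‖y‖ ≤ Y) (hE : ‖q * y * q‖ ≤ E) :
    ‖⟪ζ, y ζ⟫_ℂ‖ ≤ E * ‖ζ‖ ^ 2 + 2 * Y * δ * ‖ζ‖ := by
  have hY0 : 0 ≤ Y := (norm_nonneg _).trans hY
  have hδ0 : 0 ≤ δ := (norm_nonneg _).trans hδ
  set ζ' := (1 - q) ζ with hζ'
  have hdec : ζ = q ζ + ζ' := by simp [hζ']
  have h1 : ⟪ζ, y ζ⟫_ℂ = ⟪ζ, (q * y * q) ζ⟫_ℂ + ⟪q ζ, y ζ'⟫_ℂ + ⟪ζ', y ζ⟫_ℂ := by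
    have e1 : ⟪ζ, (q * y * q) ζ⟫_ℂ = ⟪q ζ, y (q ζ)⟫_ℂ := by
      rw [mul_apply', mul_apply', ← inner_sa hq.isSelfAdjoint]
    rw [e1, ← inner_add_right, ← map_add, ← hdec, ← inner_add_left, ← hdec]
  rw [h1]
  have hqζ : ‖q ζ‖ ≤ ‖ζ‖ := proj_norm_apply_le hq ζ
  have b1 : ‖⟪ζ, (q * y * q) ζ⟫_ℂ‖ ≤ E * ‖ζ‖ ^ 2 := by
    calc ‖⟪ζ, (q * y * q) ζ⟫_ℂ‖ ≤ ‖ζ‖ * ‖(q * y * q) ζ‖ := norm_inner_le_norm _ _
      _ ≤ ‖ζ‖ * (‖q * y * q‖ * ‖ζ‖) := by gcongr; exact (q * y * q).le_opNorm ζ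
      _ ≤ ‖ζ‖ * (E * ‖ζ‖) := by gcongr
      _ = E * ‖ζ‖ ^ 2 := by ring
  have b2 : ‖⟪q ζ, y ζ'⟫_ℂ‖ ≤ Y * δ * ‖ζ‖ := by
    calc ‖⟪q ζ, y ζ'⟫_ℂ‖ ≤ ‖q ζ‖ * ‖y ζ'‖ := norm_inner_le_norm _ _
      _ ≤ ‖ζ‖ * (‖y‖ * ‖ζ'‖) := by gcongr; exact y.le_opNorm ζ'
      _ ≤ ‖ζ‖ * (Y * δ) := by gcongr
      _ = Y * δ * ‖ζ‖ := by ring
  have b3 : ‖⟪ζ', y ζ⟫_ℂ‖ ≤ Y * δ * ‖ζ‖ := by
    calc ‖⟪ζ', y ζ⟫_ℂ‖ ≤ ‖ζ'‖ * ‖y ζ‖ := norm_inner_le_norm _ _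
      _ ≤ δ * (‖y‖ * ‖ζ‖) := by gcongr; exact y.le_opNorm ζ
      _ ≤ δ * (Y * ‖ζ‖) := by gcongr
      _ = Y * δ * ‖ζ‖ := by ring
  calc _ ≤ ‖⟪ζ, (q * y * q) ζ⟫_ℂ + ⟪q ζ, y ζ'⟫_ℂ‖ + ‖⟪ζ', y ζ⟫_ℂ‖ := norm_add_le _ _
    _ ≤ ‖⟪ζ, (q * y * q) ζ⟫_ℂ‖ + ‖⟪q ζ, y ζ'⟫_ℂ‖ + ‖⟪ζ', y ζ⟫_ℂ‖ := by
        gcongr; exact norm_add_le _ _
    _ ≤ E * ‖ζ‖ ^ 2 + Y * δ * ‖ζ‖ + Y * δ * ‖ζ‖ := by gcongr
    _ = E * ‖ζ‖ ^ 2 + 2 * Y * δ * ‖ζ‖ := by ring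

lemma norm_pinching_le {r : ℕ} {p : Fin r → (H →L[ℂ] H)} (hp : IsPart A p 1) (x : H →L[ℂ] H) :
    ‖pinching p x‖ ≤ r * ‖x‖ := by
  unfold pinching
  calc ‖∑ i, p i * x * p i‖ ≤ ∑ i, ‖p i * x * p i‖ := norm_sum_le _ _
    _ ≤ ∑ _i : Fin r, ‖x‖ := by
        apply Finset.sum_le_sum
        intro i _
        have h1 : ‖p i‖ ≤ 1 := IsStarProjection.norm_le _ (hp.proj i)
        calc ‖p i * x * p i‖ ≤ ‖p i * x‖ * ‖p i‖ := norm_mul_le _ _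
          _ ≤ (‖p i‖ * ‖x‖) * ‖p i‖ := by gcongr; exact norm_mul_le _ _
          _ ≤ (1 * ‖x‖) * 1 := by gcongr
          _ = ‖x‖ := by ring
    _ = r * ‖x‖ := by simp

/-- **Lower bound.** Over a diffuse MASA of `B(H)` the reflection `2 |f⟩⟨f| - 1` is not
`(ε, r)` so-pavable unless `r * ε ≥ 1`. -/
theorem IsMASA.one_le_of_soPavable_refl (hA : IsMASA ⊤ A) (hd : IsDiffuse A) {f : H}
    (hf : ‖f‖ = 1) {r : ℕ} {ε : ℝ} (hε : 0 ≤ ε) (h : SoPavable ⊤ A (refl f) ε r) :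
    1 ≤ r * ε := by
  classical
  by_contra hlt
  push Not at hlt
  have hr0 : (0 : ℝ) ≤ r := Nat.cast_nonneg r
  set γ : ℝ := (1 - r * ε) / (2 * r + 1) with hγ
  have hγpos : 0 < γ := by
    apply div_pos (by linarith) (by positivity)
  obtain ⟨I, _, g, hg, hgs⟩ := hA.exists_fine hd f hγpos
  set v : I → H := fun i => g i f with hv
  let F : Finset H := insert f (Finset.univ.image v)
  set n : ℝ := (Fintype.card I : ℝ) with hn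
  have hn0 : 0 ≤ n := by positivity
  set δ : ℝ := γ / ((r + 1) * (1 + n)) with hδ
  have hδpos : 0 < δ := by positivity
  obtain ⟨p, a, q, hp, ⟨haA, hasa, hanorm⟩, ⟨_, hq⟩, hFδ, hmain⟩ := h F δ hδpos
  have hpP : IsPart A p 1 := ⟨hp.mem, hp.proj, hp.orth, hp.sum_eq_one⟩
  have hxn : ‖refl f‖ ≤ 1 := refl_norm_le hf
  set y : H →L[ℂ] H := pinching p (refl f) - a with hy
  have hY : ‖y‖ ≤ r + 1 := by
    calc ‖y‖ ≤ ‖pinching p (refl f)‖ + ‖a‖ := norm_sub_le _ _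
      _ ≤ r * ‖refl f‖ + ‖refl f‖ := add_le_add (norm_pinching_le hpP _) hanorm
      _ ≤ r * 1 + 1 := by gcongr
      _ = r + 1 := by ring
  have hE : ‖q * y * q‖ ≤ ε := by
    calc ‖q * y * q‖ ≤ ε * ‖refl f‖ := hmain
      _ ≤ ε * 1 := by gcongr
      _ = ε := mul_one _
  have hφ : ∀ ζ, ⟪ζ, y ζ⟫_ℂ
      = ((2 * ∑ j, ‖⟪p j f, ζ⟫_ℂ‖ ^ 2 - ‖ζ‖ ^ 2 : ℝ) : ℂ) - ⟪ζ, a ζ⟫_ℂ := by
    intro ζ
    rw [hy, sub_apply, inner_sub_right, inner_pinching_refl hpP]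
  have hpyth : ∑ i, ‖v i‖ ^ 2 = 1 := by
    have := hg.sum_norm_sq f
    simpa [hf] using this
  -- the key identity
  have hkey : ⟪f, y f⟫_ℂ - ∑ i, ⟪v i, y (v i)⟫_ℂ
      = ((2 * ∑ j, ‖⟪p j f, f⟫_ℂ‖ ^ 2 - 2 * ∑ i, ∑ j, ‖⟪p j f, v i⟫_ℂ‖ ^ 2 : ℝ) : ℂ) := by
    simp_rw [hφ]
    rw [Finset.sum_sub_distrib, ← inner_diag hA.comm hg haA f, ← Complex.ofReal_sum,
      Finset.sum_sub_distrib, hpyth, hf, ← Finset.mul_sum]
    push_cast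
    ring
  -- lower bound for the first sum
  have hS1 : ∀ j, ‖⟪p j f, f⟫_ℂ‖ = ‖p j f‖ ^ 2 := by
    intro j
    rw [inner_sa (hpP.proj j).isSelfAdjoint, proj_inner_self (hpP.proj j), Complex.norm_real,
      Real.norm_eq_abs, abs_of_nonneg (sq_nonneg _)]
  set S : ℝ := ∑ j, ‖⟪p j f, f⟫_ℂ‖ ^ 2 with hS
  have hSlow : 1 ≤ r * S := by
    have h1 : ∑ j, ‖p j f‖ ^ 2 = 1 := by
      have := hpP.sum_norm_sq f
      simpa [hf] using this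
    have h2 := sq_sum_le_card_mul_sum_sq (s := (Finset.univ : Finset (Fin r)))
      (f := fun j => ‖p j f‖ ^ 2)
    rw [h1] at h2
    simp only [Finset.card_univ, Fintype.card_fin] at h2
    have h3 : S = ∑ j, (‖p j f‖ ^ 2) ^ 2 := by
      rw [hS]
      exact Finset.sum_congr rfl fun j _ => by rw [hS1]
    rw [h3]
    simpa using h2
  -- upper bound for the second sum
  have hT1 : ∀ i j, ‖⟪p j f, v i⟫_ℂ‖ = ‖p j (v i)‖ ^ 2 := by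
    intro i j
    have e1 : ⟪p j f, v i⟫_ℂ = ⟪v i, p j (v i)⟫_ℂ := by
      have c1 : p j (g i f) = g i (p j f) := by
        have : (p j * g i) f = (g i * p j) f := by rw [hA.comm _ (hpP.mem j) _ (hg.mem i)]
        exact this
      calc ⟪p j f, g i f⟫_ℂ = ⟪p j f, g i (g i f)⟫_ℂ := by rw [proj_apply_apply (hg.proj i)]
        _ = ⟪g i (p j f), g i f⟫_ℂ := by rw [inner_sa (hg.proj i).isSelfAdjoint]
        _ = ⟪p j (g i f), g i f⟫_ℂ := by rw [c1]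
        _ = ⟪g i f, p j (g i f)⟫_ℂ := by rw [inner_sa (hpP.proj j).isSelfAdjoint]
    rw [e1, proj_inner_self (hpP.proj j), Complex.norm_real, Real.norm_eq_abs,
      abs_of_nonneg (sq_nonneg _)]
  have hT : ∑ i, ∑ j, ‖⟪p j f, v i⟫_ℂ‖ ^ 2 ≤ γ := by
    calc ∑ i, ∑ j, ‖⟪p j f, v i⟫_ℂ‖ ^ 2 ≤ ∑ i, γ * ‖v i‖ ^ 2 := by
          apply Finset.sum_le_sum
          intro i _
          calc ∑ j, ‖⟪p j f, v i⟫_ℂ‖ ^ 2 = ∑ j, ‖p j (v i)‖ ^ 2 * ‖p j (v i)‖ ^ 2 := by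
                apply Finset.sum_congr rfl
                intro j _
                rw [hT1]; ring
            _ ≤ ∑ j, γ * ‖p j (v i)‖ ^ 2 := by
                apply Finset.sum_le_sum
                intro j _
                have h1 : ‖p j (v i)‖ ^ 2 ≤ γ := by
                  have := proj_norm_apply_le (hpP.proj j) (v i)
                  calc ‖p j (v i)‖ ^ 2 ≤ ‖v i‖ ^ 2 := by gcongr
                    _ ≤ γ := hgs i
                gcongr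
            _ = γ * ‖v i‖ ^ 2 := by
                rw [← Finset.mul_sum, hpP.sum_norm_sq]; simp
      _ = γ := by rw [← Finset.mul_sum, hpyth, mul_one]
  -- upper bound from the compression
  have hb : ∀ ζ ∈ F, ‖⟪ζ, y ζ⟫_ℂ‖ ≤ ε * ‖ζ‖ ^ 2 + 2 * (r + 1) * δ * ‖ζ‖ := by
    intro ζ hζ
    exact norm_inner_le_of_compress hq (hFδ ζ hζ).le hY hE
  have hvF : ∀ i, v i ∈ F := by
    intro i
    apply Finset.mem_insert_of_mem
    exact Finset.mem_image_of_mem _ (Finset.mem_univ i)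
  have hvle : ∀ i, ‖v i‖ ≤ 1 := by
    intro i
    have := proj_norm_apply_le (hg.proj i) f
    rwa [hf] at this
  have hupper : ‖⟪f, y f⟫_ℂ - ∑ i, ⟪v i, y (v i)⟫_ℂ‖ ≤ 2 * ε + 2 * γ := by
    have h1 := hb f (Finset.mem_insert_self _ _)
    rw [hf] at h1
    have h2 : ‖∑ i, ⟪v i, y (v i)⟫_ℂ‖ ≤ ε + 2 * (r + 1) * δ * n := by
      calc ‖∑ i, ⟪v i, y (v i)⟫_ℂ‖ ≤ ∑ i, ‖⟪v i, y (v i)⟫_ℂ‖ := norm_sum_le _ _
        _ ≤ ∑ i, (ε * ‖v i‖ ^ 2 + 2 * (r + 1) * δ * 1) := by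
            apply Finset.sum_le_sum
            intro i _
            refine (hb _ (hvF i)).trans ?_
            have := hvle i
            gcongr
        _ = ε + 2 * (r + 1) * δ * n := by
            rw [Finset.sum_add_distrib, ← Finset.mul_sum, hpyth, Finset.sum_const,
              Finset.card_univ, nsmul_eq_mul]
            ring
    have h3 : (r + 1) * δ * (1 + n) = γ := by
      rw [hδ]; field_simp
    calc _ ≤ ‖⟪f, y f⟫_ℂ‖ + ‖∑ i, ⟪v i, y (v i)⟫_ℂ‖ := norm_sub_le _ _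
      _ ≤ (ε * 1 ^ 2 + 2 * (r + 1) * δ * 1) + (ε + 2 * (r + 1) * δ * n) := add_le_add h1 h2
      _ = 2 * ε + 2 * ((r + 1) * δ * (1 + n)) := by ring
      _ = 2 * ε + 2 * γ := by rw [h3]
  rw [hkey, Complex.norm_real, Real.norm_eq_abs] at hupper
  have h4 := (le_abs_self _).trans hupper
  have h5 : S ≤ ε + 2 * γ := by linarith
  have h6 : (r : ℝ) * S ≤ r * (ε + 2 * γ) := by gcongr
  have h7 : 2 * r * γ < 1 - r * ε := by
    rw [hγ, mul_div_assoc', div_lt_iff₀ (by positivity)]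
    nlinarith
  linarith

end Vale.Agent.P078
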