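import Mathlib

/-!
# P078: second moment of a random colouring
-/

namespace Vale.Agent.P078

open Finset

variable {U : Type*} [Fintype U] [DecidableEq U]

/-- centred indicator of the event that `u` and `v` get the same colour (zero on the diagonal). -/
noncomputable def cInd (r : ℕ) (u v : U) (c : U → Fin r) : ℝ :=
  if u = v then 0 else ((if c u = c v then (1 : ℝ) else 0) - 1 / (r : ℝ))

lemma cInd_symm (r : ℕ) (u v : U) (c : U → Fin r) : cInd r u v c = cInd r v u c := by
  unfold cInd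
  by_cases h : u = v
  · simp [h]
  · have h' : v ≠ u := fun h'' => h h''.symm
    simp only [h, h', if_false]
    by_cases hc : c u = c v
    · simp [hc]
    · have hc' : c v ≠ c u := fun h'' => hc h''.symm
      simp [hc, hc']

lemma abs_cInd_le_one {r : ℕ} (hr : 0 < r) (u v : U) (c : U → Fin r) : |cInd r u v c| ≤ 1 := by
  have h1 : (1 : ℝ) ≤ r := by exact_mod_cast hr
  have h2 : 0 < 1 / (r : ℝ) := by positivity
  have h3 : 1 / (r : ℝ) ≤ 1 := by
    rw [div_le_one (by positivity)]; exact h1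
  unfold cInd
  split_ifs
  · simp
  · rw [abs_le]; constructor <;> linarith
  · rw [abs_le]; constructor <;> linarith

/-- averaging over the colour of `w` kills the centred indicator. -/
lemma sum_cInd_mul_eq_zero {r : ℕ} (hr : 0 < r) {w v u' v' : U} (hwv : w ≠ v) (hwu' : w ≠ u')
    (hwv' : w ≠ v') :
    ∑ c : U → Fin r, cInd r w v c * cInd r u' v' c = 0 := by
  classical
  rw [← (Equiv.funSplitAt w (Fin r)).symm.sum_comp, Fintype.sum_prod_type_right]
  apply Finset.sum_eq_zero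
  intro c' _
  have hv : ∀ j : Fin r, ((Equiv.funSplitAt w (Fin r)).symm (j, c')) v = c' ⟨v, hwv.symm⟩ := by
    intro j
    simp [Equiv.funSplitAt, Equiv.piSplitAt, hwv.symm]
  have hu' : ∀ j : Fin r, ((Equiv.funSplitAt w (Fin r)).symm (j, c')) u' = c' ⟨u', hwu'.symm⟩ := by
    intro j
    simp [Equiv.funSplitAt, Equiv.piSplitAt, hwu'.symm]
  have hv' : ∀ j : Fin r, ((Equiv.funSplitAt w (Fin r)).symm (j, c')) v' = c' ⟨v', hwv'.symm⟩ := by
    intro j
    simp [Equiv.funSplitAt, Equiv.piSplitAt, hwv'.symm]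
  have hw : ∀ j : Fin r, ((Equiv.funSplitAt w (Fin r)).symm (j, c')) w = j := by
    intro j
    simp [Equiv.funSplitAt, Equiv.piSplitAt]
  have hr' : (r : ℝ) ≠ 0 := by exact_mod_cast hr.ne'
  unfold cInd
  simp only [hv, hu', hv', hw, hwv, if_false]
  rw [← Finset.sum_mul]
  have : ∑ j : Fin r, ((if j = c' ⟨v, hwv.symm⟩ then (1 : ℝ) else 0) - 1 / (r : ℝ)) = 0 := by
    rw [Finset.sum_sub_distrib]
    simp [hr']
  rw [this, zero_mul]

lemma sum_cInd_mul_eq_zero' {r : ℕ} (hr : 0 < r) {u v u' v' : U}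
    (h1 : ¬ (u' = u ∧ v' = v)) (h2 : ¬ (u' = v ∧ v' = u)) :
    ∑ c : U → Fin r, cInd r u v c * cInd r u' v' c = 0 := by
  by_cases huv : u = v
  · simp [cInd, huv]
  by_cases hu'v' : u' = v'
  · simp [cInd, hu'v']
  by_cases hu : u ≠ u' ∧ u ≠ v'
  · exact sum_cInd_mul_eq_zero hr huv hu.1 hu.2
  by_cases hv : v ≠ u' ∧ v ≠ v'
  · simp_rw [cInd_symm r u v]
    exact sum_cInd_mul_eq_zero hr (fun h => huv h.symm) hv.1 hv.2
  exfalso
  push Not at hu hv
  by_cases a1 : u = u'
  · by_cases a2 : v = u'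
    · exact huv (a1.trans a2.symm)
    · exact h1 ⟨a1.symm, (hv a2).symm⟩
  · have b1 := hu a1
    by_cases a2 : v = u'
    · exact h2 ⟨a2.symm, b1.symm⟩
    · exact huv (b1.trans (hv a2).symm)

lemma abs_sum_cInd_mul_le {r : ℕ} (hr : 0 < r) (u v u' v' : U) :
    |∑ c : U → Fin r, cInd r u v c * cInd r u' v' c| ≤ Fintype.card (U → Fin r) := by
  calc |∑ c : U → Fin r, cInd r u v c * cInd r u' v' c|
      ≤ ∑ c : U → Fin r, |cInd r u v c * cInd r u' v' c| := Finset.abs_sum_le_sum_abs _ _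
    _ ≤ ∑ _c : U → Fin r, (1 : ℝ) := by
        apply Finset.sum_le_sum
        intro c _
        rw [abs_mul]
        exact mul_le_one₀ (abs_cInd_le_one hr _ _ _) (abs_nonneg _) (abs_cInd_le_one hr _ _ _)
    _ = Fintype.card (U → Fin r) := by simp

/-- Second moment bound for the quadratic chaos of a uniformly random colouring. -/
theorem second_moment {V : Type*} [NormedAddCommGroup V] [InnerProductSpace ℝ V]
    {r : ℕ} (hr : 0 < r) (t : U × U → V) :
    ∑ c : U → Fin r, ‖∑ e : U × U, cInd r e.1 e.2 c • t e‖ ^ 2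
      ≤ 2 * (Fintype.card (U → Fin r) : ℝ) * ∑ e : U × U, ‖t e‖ ^ 2 := by
  classical
  set N : ℝ := (Fintype.card (U → Fin r) : ℝ) with hN
  have hN0 : 0 ≤ N := by positivity
  have h1 : ∀ c : U → Fin r, ‖∑ e : U × U, cInd r e.1 e.2 c • t e‖ ^ 2
      = ∑ e : U × U, ∑ e' : U × U,
          (cInd r e.1 e.2 c * cInd r e'.1 e'.2 c) * inner ℝ (t e) (t e') := by
    intro c
    rw [← real_inner_self_eq_norm_sq, sum_inner]
    apply Finset.sum_congr rfl
    intro e _
    rw [inner_sum]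
    apply Finset.sum_congr rfl
    intro e' _
    rw [real_inner_smul_left, real_inner_smul_right]
    ring
  have h2 : ∑ c : U → Fin r, ‖∑ e : U × U, cInd r e.1 e.2 c • t e‖ ^ 2
      = ∑ e : U × U, ∑ e' : U × U,
          (∑ c : U → Fin r, cInd r e.1 e.2 c * cInd r e'.1 e'.2 c) * inner ℝ (t e) (t e') := by
    simp_rw [h1]
    rw [Finset.sum_comm]
    apply Finset.sum_congr rfl
    intro e _
    rw [Finset.sum_comm]
    apply Finset.sum_congr rfl
    intro e' _
    rw [Finset.sum_mul]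
  rw [h2]
  have h3 : ∀ e e' : U × U,
      (∑ c : U → Fin r, cInd r e.1 e.2 c * cInd r e'.1 e'.2 c) * inner ℝ (t e) (t e')
        ≤ N * (((if e' = e then (1 : ℝ) else 0) + (if e' = e.swap then (1 : ℝ) else 0))
            * (‖t e‖ * ‖t e'‖)) := by
    intro e e'
    have hnn : 0 ≤ ‖t e‖ * ‖t e'‖ := by positivity
    by_cases c1 : e' = e
    · have : (∑ c : U → Fin r, cInd r e.1 e.2 c * cInd r e'.1 e'.2 c) * inner ℝ (t e) (t e')
          ≤ N * (‖t e‖ * ‖t e'‖) := by
        calc _ ≤ |(∑ c : U → Fin r, cInd r e.1 e.2 c * cInd r e'.1 e'.2 c)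
                  * inner ℝ (t e) (t e')| := le_abs_self _
          _ = |∑ c : U → Fin r, cInd r e.1 e.2 c * cInd r e'.1 e'.2 c|
                  * |inner ℝ (t e) (t e')| := abs_mul _ _
          _ ≤ N * (‖t e‖ * ‖t e'‖) :=
              mul_le_mul (abs_sum_cInd_mul_le hr _ _ _ _) (abs_real_inner_le_norm _ _)
                (abs_nonneg _) hN0
      refine this.trans ?_
      apply mul_le_mul_of_nonneg_left _ hN0
      have : (1 : ℝ) ≤ ((if e' = e then (1 : ℝ) else 0) + (if e' = e.swap then (1 : ℝ) else 0)) := by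
        simp only [c1, if_true]
        split_ifs <;> norm_num
      nlinarith
    · by_cases c2 : e' = e.swap
      · have : (∑ c : U → Fin r, cInd r e.1 e.2 c * cInd r e'.1 e'.2 c) * inner ℝ (t e) (t e')
            ≤ N * (‖t e‖ * ‖t e'‖) := by
          calc _ ≤ |(∑ c : U → Fin r, cInd r e.1 e.2 c * cInd r e'.1 e'.2 c)
                    * inner ℝ (t e) (t e')| := le_abs_self _
            _ = |∑ c : U → Fin r, cInd r e.1 e.2 c * cInd r e'.1 e'.2 c|
                    * |inner ℝ (t e) (t e')| := abs_mul _ _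
            _ ≤ N * (‖t e‖ * ‖t e'‖) :=
                mul_le_mul (abs_sum_cInd_mul_le hr _ _ _ _) (abs_real_inner_le_norm _ _)
                  (abs_nonneg _) hN0
        refine this.trans ?_
        apply mul_le_mul_of_nonneg_left _ hN0
        have : (1 : ℝ) ≤ ((if e' = e then (1 : ℝ) else 0) + (if e' = e.swap then (1 : ℝ) else 0)) := by
          rw [if_neg c1, if_pos c2]; norm_num
        nlinarith
      · have hz : ∑ c : U → Fin r, cInd r e.1 e.2 c * cInd r e'.1 e'.2 c = 0 := by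
          apply sum_cInd_mul_eq_zero' hr
          · rintro ⟨a, b⟩
            exact c1 (Prod.ext a b)
          · rintro ⟨a, b⟩
            exact c2 (Prod.ext a b)
        rw [hz, zero_mul]
        simp only [c1, c2, if_false]
        simp
  calc ∑ e : U × U, ∑ e' : U × U,
          (∑ c : U → Fin r, cInd r e.1 e.2 c * cInd r e'.1 e'.2 c) * inner ℝ (t e) (t e')
      ≤ ∑ e : U × U, ∑ e' : U × U,
          N * (((if e' = e then (1 : ℝ) else 0) + (if e' = e.swap then (1 : ℝ) else 0))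
            * (‖t e‖ * ‖t e'‖)) :=
        Finset.sum_le_sum fun e _ => Finset.sum_le_sum fun e' _ => h3 e e'
    _ = ∑ e : U × U, N * (‖t e‖ * ‖t e‖ + ‖t e‖ * ‖t e.swap‖) := by
        apply Finset.sum_congr rfl
        intro e _
        rw [← Finset.mul_sum]
        congr 1
        simp_rw [add_mul, Finset.sum_add_distrib, ite_mul, one_mul, zero_mul]
        simp
    _ ≤ ∑ e : U × U, N * (3 / 2 * ‖t e‖ ^ 2 + 1 / 2 * ‖t e.swap‖ ^ 2) := by
        apply Finset.sum_le_sum
        intro e _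
        apply mul_le_mul_of_nonneg_left _ hN0
        nlinarith [sq_nonneg (‖t e‖ - ‖t e.swap‖)]
    _ = 2 * N * ∑ e : U × U, ‖t e‖ ^ 2 := by
        have hs : ∑ e : U × U, ‖t e.swap‖ ^ 2 = ∑ e : U × U, ‖t e‖ ^ 2 :=
          (Equiv.prodComm U U).sum_comp (fun e => ‖t e‖ ^ 2)
        rw [← Finset.mul_sum, Finset.sum_add_distrib, ← Finset.mul_sum, ← Finset.mul_sum, hs]
        ring

/-- There is a colouring at least as good as the average, simultaneously for a finite family. -/
theorem exists_colouring {V : Type*} [NormedAddCommGroup V] [InnerProductSpace ℝ V]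
    {J : Type*} [Fintype J] {r : ℕ} (hr : 0 < r) (t : J → U × U → V) :
    ∃ c : U → Fin r, ∑ j : J, ‖∑ e : U × U, cInd r e.1 e.2 c • t j e‖ ^ 2
      ≤ 2 * ∑ j : J, ∑ e : U × U, ‖t j e‖ ^ 2 := by
  classical
  have : Nonempty (Fin r) := ⟨⟨0, hr⟩⟩
  have hne : (Finset.univ : Finset (U → Fin r)).Nonempty := Finset.univ_nonempty
  have key : ∑ c : U → Fin r, ∑ j : J, ‖∑ e : U × U, cInd r e.1 e.2 c • t j e‖ ^ 2
      ≤ ∑ _c : U → Fin r, 2 * ∑ j : J, ∑ e : U × U, ‖t j e‖ ^ 2 := by
    rw [Finset.sum_comm]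
    calc ∑ j : J, ∑ c : U → Fin r, ‖∑ e : U × U, cInd r e.1 e.2 c • t j e‖ ^ 2
        ≤ ∑ j : J, 2 * (Fintype.card (U → Fin r) : ℝ) * ∑ e : U × U, ‖t j e‖ ^ 2 :=
          Finset.sum_le_sum fun j _ => second_moment hr (t j)
      _ = ∑ _c : U → Fin r, 2 * ∑ j : J, ∑ e : U × U, ‖t j e‖ ^ 2 := by
          rw [Finset.sum_const, ← Finset.mul_sum, Finset.card_univ, nsmul_eq_mul]
          ring
  obtain ⟨c, _, hc⟩ := Finset.exists_le_of_sum_le hne key
  exact ⟨c, hc⟩

end Vale.Agent.P078
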