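import Vale.Agent.P078.Defs

/-!
# P078: basic facts on projections and finite partitions in an abelian algebra
-/

namespace Vale.Agent.P078

open scoped InnerProductSpace

variable {H : Type*} [NormedAddCommGroup H] [InnerProductSpace ℂ H] [CompleteSpace H]

lemma inner_sa {p : H →L[ℂ] H} (hp : IsSelfAdjoint p) (x y : H) :
    ⟪p x, y⟫_ℂ = ⟪x, p y⟫_ℂ := by
  have := ContinuousLinearMap.adjoint_inner_left p y x
  rwa [← ContinuousLinearMap.star_eq_adjoint, hp.star_eq] at this

lemma proj_apply_apply {p : H →L[ℂ] H} (hp : IsStarProjection p) (x : H) : p (p x) = p x := by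
  have := congrArg (fun T : H →L[ℂ] H => T x) hp.isIdempotentElem.eq
  simpa using this

lemma mul_apply' (a b : H →L[ℂ] H) (x : H) : (a * b) x = a (b x) := rfl

lemma proj_norm_apply_le {p : H →L[ℂ] H} (hp : IsStarProjection p) (x : H) : ‖p x‖ ≤ ‖x‖ := by
  have h1 := p.le_opNorm x
  have h2 := IsStarProjection.norm_le p hp
  calc ‖p x‖ ≤ ‖p‖ * ‖x‖ := h1
    _ ≤ 1 * ‖x‖ := by gcongr
    _ = ‖x‖ := one_mul _

lemma proj_inner_self {p : H →L[ℂ] H} (hp : IsStarProjection p) (x : H) :
    ⟪x, p x⟫_ℂ = ((‖p x‖ ^ 2 : ℝ) : ℂ) := by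
  have : ⟪p x, p x⟫_ℂ = ⟪x, p x⟫_ℂ := by
    rw [inner_sa hp.isSelfAdjoint, proj_apply_apply hp]
  rw [← this, inner_self_eq_norm_sq_to_K]
  norm_cast

/-- A finite partition of the projection `e` into projections of `A`. -/
structure IsPart (A : StarSubalgebra ℂ (H →L[ℂ] H)) {ι : Type*} [Fintype ι]
    (g : ι → (H →L[ℂ] H)) (e : H →L[ℂ] H) : Prop where
  mem : ∀ i, g i ∈ A
  proj : ∀ i, IsStarProjection (g i)
  orth : ∀ i j, i ≠ j → g i * g j = 0
  sum_eq : ∑ i, g i = e

namespace IsPart

variable {A : StarSubalgebra ℂ (H →L[ℂ] H)} {ι : Type*} [Fintype ι]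
  {g : ι → (H →L[ℂ] H)} {e : H →L[ℂ] H}

lemma inner_eq_zero (hg : IsPart A g e) {i j : ι} (hij : i ≠ j) (x y : H) :
    ⟪g i x, g j y⟫_ℂ = 0 := by
  rw [inner_sa (hg.proj i).isSelfAdjoint, ← mul_apply', hg.orth i j hij]
  simp

lemma apply_apply_ne (hg : IsPart A g e) {i j : ι} (hij : i ≠ j) (x : H) :
    g i (g j x) = 0 := by
  rw [← mul_apply', hg.orth i j hij]; simp

lemma sum_apply (hg : IsPart A g e) (x : H) : ∑ i, g i x = e x := by
  rw [← hg.sum_eq]; simp

lemma mem_total (hg : IsPart A g e) : e ∈ A := by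
  rw [← hg.sum_eq]; exact sum_mem fun i _ => hg.mem i

/-- Pythagoras for weighted sums over a partition. -/
lemma norm_sq_sum_smul (hg : IsPart A g e) (d : ι → ℂ) (x : H) :
    ‖∑ i, d i • g i x‖ ^ 2 = ∑ i, ‖d i‖ ^ 2 * ‖g i x‖ ^ 2 := by
  classical
  have h : ((‖∑ i, d i • g i x‖ ^ 2 : ℝ) : ℂ) = ((∑ i, ‖d i‖ ^ 2 * ‖g i x‖ ^ 2 : ℝ) : ℂ) := by
    have h0 : ((‖∑ i, d i • g i x‖ ^ 2 : ℝ) : ℂ) = ⟪∑ i, d i • g i x, ∑ i, d i • g i x⟫_ℂ := by
      rw [inner_self_eq_norm_sq_to_K]; norm_cast
    rw [h0, sum_inner]
    push_cast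
    apply Finset.sum_congr rfl
    intro i _
    rw [inner_sum, Finset.sum_eq_single i]
    · rw [inner_smul_left, inner_smul_right, inner_self_eq_norm_sq_to_K, ← mul_assoc,
        Complex.conj_mul']
      push_cast
      rfl
    · intro j _ hji
      rw [inner_smul_left, inner_smul_right, hg.inner_eq_zero hji.symm]
      simp
    · intro h; exact absurd (Finset.mem_univ i) h
  exact_mod_cast h

lemma sum_norm_sq (hg : IsPart A g e) (x : H) : ∑ i, ‖g i x‖ ^ 2 = ‖e x‖ ^ 2 := by
  have := hg.norm_sq_sum_smul (fun _ => 1) x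
  simp only [one_smul, norm_one, one_pow, one_mul] at this
  rw [← this, hg.sum_apply]

lemma total_proj (hg : IsPart A g e) : IsStarProjection e := by
  classical
  constructor
  · unfold IsIdempotentElem
    rw [← hg.sum_eq, Finset.sum_mul_sum]
    apply Finset.sum_congr rfl
    intro i _
    rw [Finset.sum_eq_single i]
    · exact (hg.proj i).isIdempotentElem.eq
    · intro j _ hji
      exact hg.orth i j hji.symm
    · intro h; exact absurd (Finset.mem_univ i) h
  · rw [← hg.sum_eq]
    unfold IsSelfAdjoint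
    rw [star_sum]
    exact Finset.sum_congr rfl fun i _ => (hg.proj i).isSelfAdjoint.star_eq

/-- A weighted sum over a partition of `1` has norm at most the largest weight. -/
lemma norm_sum_smul_le (hg : IsPart A g e) (d : ι → ℂ) {D : ℝ} (hD : 0 ≤ D)
    (hd : ∀ i, ‖d i‖ ≤ D) : ‖∑ i, d i • g i‖ ≤ D := by
  apply ContinuousLinearMap.opNorm_le_bound _ hD
  intro x
  have h1 : ‖(∑ i, d i • g i) x‖ ^ 2 ≤ (D * ‖x‖) ^ 2 := by
    have : (∑ i, d i • g i) x = ∑ i, d i • g i x := by simp
    rw [this, hg.norm_sq_sum_smul]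
    calc ∑ i, ‖d i‖ ^ 2 * ‖g i x‖ ^ 2 ≤ ∑ i, D ^ 2 * ‖g i x‖ ^ 2 := by
          apply Finset.sum_le_sum
          intro i _
          have := hd i
          gcongr
      _ = D ^ 2 * ‖e x‖ ^ 2 := by rw [← Finset.mul_sum, hg.sum_norm_sq]
      _ ≤ D ^ 2 * ‖x‖ ^ 2 := by
          have := proj_norm_apply_le hg.total_proj x
          gcongr
      _ = (D * ‖x‖) ^ 2 := by ring
  exact (pow_le_pow_iff_left₀ (norm_nonneg _) (by positivity) two_ne_zero).mp h1

/-- Common refinement of two partitions in an abelian algebra. -/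
lemma prod (hcomm : ∀ a ∈ A, ∀ b ∈ A, a * b = b * a) {κ : Type*} [Fintype κ]
    {g' : κ → (H →L[ℂ] H)} {e' : H →L[ℂ] H} (hg : IsPart A g e) (hg' : IsPart A g' e') :
    IsPart A (fun w : ι × κ => g w.1 * g' w.2) (e * e') where
  mem w := mul_mem (hg.mem _) (hg'.mem _)
  proj w := (hg.proj _).mul (hg'.proj _) (hcomm _ (hg.mem _) _ (hg'.mem _))
  orth := by
    rintro ⟨i, j⟩ ⟨i', j'⟩ hne
    have h1 : g i * g' j * (g i' * g' j') = (g i * g i') * (g' j * g' j') := by
      rw [mul_assoc, ← mul_assoc (g' j), hcomm _ (hg'.mem j) _ (hg.mem i'), mul_assoc, mul_assoc]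
    show g i * g' j * (g i' * g' j') = 0
    rw [h1]
    by_cases hi : i = i'
    · have hj : j ≠ j' := fun hj => hne (by rw [hi, hj])
      rw [hg'.orth j j' hj, mul_zero]
    · rw [hg.orth i i' hi, zero_mul]
  sum_eq := by
    rw [Fintype.sum_prod_type, ← hg.sum_eq, ← hg'.sum_eq, Finset.sum_mul_sum]

/-- Grouping the pieces of a partition according to a colouring. -/
lemma colour [DecidableEq ι] (hg : IsPart A g e) {r : ℕ} (c : ι → Fin r) :
    IsPart A (fun j : Fin r => ∑ w, if c w = j then g w else 0) e where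
  mem j := sum_mem fun w _ => by
    split_ifs
    · exact hg.mem w
    · exact zero_mem _
  proj j := by
    constructor
    · unfold IsIdempotentElem
      rw [Finset.sum_mul_sum]
      apply Finset.sum_congr rfl
      intro w _
      rw [Finset.sum_eq_single w]
      · split_ifs
        · exact (hg.proj w).isIdempotentElem.eq
        · simp
      · intro w' _ hne
        split_ifs
        · exact hg.orth w w' hne.symm
        · simp
        · simp
        · simp
      · intro h; exact absurd (Finset.mem_univ w) h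
    · unfold IsSelfAdjoint
      rw [star_sum]
      apply Finset.sum_congr rfl
      intro w _
      split_ifs
      · exact (hg.proj w).isSelfAdjoint.star_eq
      · simp
  orth := by
    intro j j' hne
    rw [Finset.sum_mul_sum]
    apply Finset.sum_eq_zero
    intro w _
    apply Finset.sum_eq_zero
    intro w' _
    split_ifs with h1 h2
    · apply hg.orth
      intro h
      apply hne
      rw [← h1, ← h2, h]
    · simp
    · simp
    · simp
  sum_eq := by
    rw [Finset.sum_comm, ← hg.sum_eq]
    apply Finset.sum_congr rfl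
    intro w _
    simp

lemma toPartitionIn {r : ℕ} {p : Fin r → (H →L[ℂ] H)} (hp : IsPart A p 1) :
    IsPartitionIn A p :=
  ⟨hp.mem, hp.proj, hp.orth, hp.sum_eq⟩

/-- The two-piece partition `f, e - f`. -/
lemma pair {f : H →L[ℂ] H} (he : e ∈ A) (hep : IsStarProjection e) (hf : f ∈ A)
    (hfp : IsStarProjection f) (hfe : f * e = f) :
    IsPart A (fun b : Bool => if b then f else e - f) e where
  mem b := by
    cases b
    · simpa using sub_mem he hf
    · simpa using hf
  proj b := by
    cases b
    · simpa using hfp.sub_of_mul_eq_left hep hfe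
    · simpa using hfp
  orth := by
    have hef : e * f = f := by
      have := congrArg star hfe
      simpa [hfp.isSelfAdjoint.star_eq, hep.isSelfAdjoint.star_eq] using this
    intro b b' hne
    cases b <;> cases b' <;> simp at hne ⊢
    · rw [sub_mul, hef, hfp.isIdempotentElem.eq, sub_self]
    · rw [mul_sub, hfe, hfp.isIdempotentElem.eq, sub_self]
  sum_eq := by simp

/-- Disjoint union of partitions of orthogonal projections. -/
lemma sum {κ : Type*} [Fintype κ] {g' : κ → (H →L[ℂ] H)} {e' : H →L[ℂ] H}
    (hg : IsPart A g e) (hg' : IsPart A g' e') (hee' : e * e' = 0) :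
    IsPart A (Sum.elim g g') (e + e') where
  mem w := by
    cases w
    · exact hg.mem _
    · exact hg'.mem _
  proj w := by
    cases w
    · exact hg.proj _
    · exact hg'.proj _
  orth := by
    classical
    have hge : ∀ i, g i * e = g i := by
      intro i
      rw [← hg.sum_eq, Finset.mul_sum, Finset.sum_eq_single i]
      · exact (hg.proj i).isIdempotentElem.eq
      · intro j _ hji; exact hg.orth i j hji.symm
      · intro h; exact absurd (Finset.mem_univ i) h
    have heg' : ∀ j, e' * g' j = g' j := by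
      intro i
      rw [← hg'.sum_eq, Finset.sum_mul, Finset.sum_eq_single i]
      · exact (hg'.proj i).isIdempotentElem.eq
      · intro j _ hji; exact hg'.orth j i hji
      · intro h; exact absurd (Finset.mem_univ i) h
    have h1 : ∀ i j, g i * g' j = 0 := by
      intro i j
      rw [← hge i, ← heg' j, mul_assoc, ← mul_assoc e, hee', zero_mul, mul_zero]
    have h2 : ∀ i j, g' j * g i = 0 := by
      intro i j
      have := congrArg star (h1 i j)
      simpa [(hg.proj i).isSelfAdjoint.star_eq, (hg'.proj j).isSelfAdjoint.star_eq] using this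
    intro w w' hne
    cases w <;> cases w'
    · exact hg.orth _ _ (fun h => hne (by rw [h]))
    · exact h1 _ _
    · exact h2 _ _
    · exact hg'.orth _ _ (fun h => hne (by rw [h]))
  sum_eq := by
    rw [Fintype.sum_sum_type]
    simp [hg.sum_eq, hg'.sum_eq]

/-- Cutting a partition by a projection of the abelian algebra. -/
lemma cut (hcomm : ∀ a ∈ A, ∀ b ∈ A, a * b = b * a) (hg : IsPart A g e) {f : H →L[ℂ] H}
    (hf : f ∈ A) (hfp : IsStarProjection f) : IsPart A (fun i => g i * f) (e * f) where
  mem i := mul_mem (hg.mem i) hf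
  proj i := (hg.proj i).mul hfp (hcomm _ (hg.mem i) _ hf)
  orth := by
    intro i j hij
    show g i * f * (g j * f) = 0
    rw [mul_assoc, ← mul_assoc f, hcomm _ hf _ (hg.mem j), mul_assoc, ← mul_assoc, hg.orth i j hij,
      zero_mul]
  sum_eq := by rw [← Finset.sum_mul, hg.sum_eq]

end IsPart

/-- The projection onto a closed subspace invariant under a star-closed family commutes with it. -/
lemma starProjection_commute {K : Submodule ℂ H} [K.HasOrthogonalProjection] {a : H →L[ℂ] H}
    (h1 : ∀ x ∈ K, a x ∈ K) (h2 : ∀ x ∈ K, (star a) x ∈ K) :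
    a * K.starProjection = K.starProjection * a := by
  have hsa : IsSelfAdjoint K.starProjection :=
    (isStarProjection_starProjection (U := K)).isSelfAdjoint
  have e1 : K.starProjection * a * K.starProjection = a * K.starProjection := by
    ext x
    simp only [mul_apply']
    exact Submodule.starProjection_eq_self_iff.mpr (h1 _ (K.starProjection_apply_mem x))
  have e2 : K.starProjection * star a * K.starProjection = star a * K.starProjection := by
    ext x
    simp only [mul_apply']
    exact Submodule.starProjection_eq_self_iff.mpr (h2 _ (K.starProjection_apply_mem x))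
  have e3 := congrArg star e2
  simp only [star_mul, star_star, hsa.star_eq] at e3
  calc a * K.starProjection = K.starProjection * a * K.starProjection := e1.symm
    _ = K.starProjection * (a * K.starProjection) := mul_assoc _ _ _
    _ = K.starProjection * a := e3

/-- In a MASA of `B(H)`: the projection onto a closed `A`-invariant subspace belongs to `A`. -/
lemma IsMASA.starProjection_mem {A : StarSubalgebra ℂ (H →L[ℂ] H)} (hA : IsMASA ⊤ A)
    {K : Submodule ℂ H} [K.HasOrthogonalProjection] (h : ∀ a ∈ A, ∀ x ∈ K, a x ∈ K) :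
    K.starProjection ∈ A := by
  apply hA.maximal _ (by trivial)
  intro a ha
  exact starProjection_commute (h a ha) (h _ (star_mem ha))

end Vale.Agent.P078
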