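import Vale.Agent.P078.Diffuse
import Vale.Agent.P078.Frame
import Vale.Agent.P078.Moment

/-!
# P078: the upper bound for diffuse MASAs of `B(H)`
-/

namespace Vale.Agent.P078

open scoped InnerProductSpace

variable {H : Type*} [NormedAddCommGroup H] [InnerProductSpace ℂ H] [CompleteSpace H]
variable {A : StarSubalgebra ℂ (H →L[ℂ] H)}

/-- The normalised vector (zero for the zero vector). -/
noncomputable def nrm (v : H) : H := ((‖v‖⁻¹ : ℝ) : ℂ) • v

lemma nrm_norm (v : H) : ‖nrm v‖ = 1 ∨ nrm v = 0 := by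
  by_cases hv : v = 0
  · right; simp [nrm, hv]
  · left
    have : ‖v‖ ≠ 0 := norm_ne_zero_iff.mpr hv
    rw [nrm, norm_smul]
    simp [this]

lemma nrm_norm_le (v : H) : ‖nrm v‖ ≤ 1 := by
  rcases nrm_norm v with h | h
  · exact h.le
  · rw [h]; simp

lemma inner_nrm_smul (v : H) : ⟪nrm v, v⟫_ℂ • nrm v = v := by
  by_cases hv : v = 0
  · simp [nrm, hv]
  · have h0 : (‖v‖ : ℂ) ≠ 0 := by exact_mod_cast norm_ne_zero_iff.mpr hv
    rw [nrm, inner_smul_left, inner_self_eq_norm_sq_to_K, smul_smul]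
    have : (starRingEnd ℂ) ((‖v‖⁻¹ : ℝ) : ℂ) * ((‖v‖ : ℂ)) ^ 2 * ((‖v‖⁻¹ : ℝ) : ℂ) = 1 := by
      rw [Complex.conj_ofReal]
      push_cast
      field_simp
    have h2 : (starRingEnd ℂ) ((‖v‖⁻¹ : ℝ) : ℂ) * (((‖v‖ : ℝ) : ℂ)) ^ 2 * ((‖v‖⁻¹ : ℝ) : ℂ) = 1 := this
    erw [h2, one_smul]

lemma inner_self_real {x : H →L[ℂ] H} (hx : IsSelfAdjoint x) (y : H) :
    ⟪y, x y⟫_ℂ = ((⟪y, x y⟫_ℂ).re : ℂ) := by
  have h1 : (starRingEnd ℂ) ⟪y, x y⟫_ℂ = ⟪y, x y⟫_ℂ := by
    rw [inner_conj_symm, inner_sa hx]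
  obtain ⟨t, ht⟩ := Complex.conj_eq_iff_real.mp h1
  rw [ht]; simp

/-- The analytic core: a random colouring of a fine partition. -/
lemma IsMASA.core (hA : IsMASA ⊤ A) (hd : IsDiffuse A) {x : H →L[ℂ] H} (hx : IsSelfAdjoint x)
    {r : ℕ} (hr : 0 < r) (η : H) {I : Type} [Fintype I] {e : I → (H →L[ℂ] H)}
    (he : IsPart A e 1) {θ : ℝ} (hθ : 0 < θ) :
    ∃ (p : Fin r → (H →L[ℂ] H)) (a : H →L[ℂ] H), IsPart A p 1 ∧ a ∈ A ∧ IsSelfAdjoint a ∧
      ‖a‖ ≤ (1 - 1 / r) * ‖x‖ ∧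
      ‖frameProj (fun i => nrm (e i η)) * (pinching p x - a - ((1 / r : ℝ) : ℂ) • x)
        * frameProj (fun i => nrm (e i η))‖ ≤ θ * ‖x‖ := by
  classical
  set u : I → H := fun i => nrm (e i η) with hu
  set N2 : ℝ := (Fintype.card (I × I) : ℝ) with hN2
  have hN2nn : 0 ≤ N2 := by positivity
  set τ : ℝ := θ / (N2 + 1) with hτ
  have hτpos : 0 < τ := by positivity
  set κ' : ℝ := τ ^ 2 / (2 * (N2 + 1)) with hκ'
  have hκ'pos : 0 < κ' := by positivity
  set M : ℝ := ∑ k, (‖e k η‖⁻¹) ^ 2 with hM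
  have hMnn : 0 ≤ M := Finset.sum_nonneg fun k _ => sq_nonneg _
  set κ : ℝ := κ' / (M + 1) with hκ
  have hκpos : 0 < κ := by positivity
  obtain ⟨U, _, g, hg, hgs⟩ := hA.exists_fine hd η hκpos
  set G : U × I → (H →L[ℂ] H) := fun w => g w.1 * e w.2 with hGdef
  have hG : IsPart A G 1 := by simpa using hg.prod hA.comm he
  set lam : U × I → I → ℂ := fun w k => if w.2 = k then ((‖e k η‖⁻¹ : ℝ) : ℂ) else 0 with hlam
  have claim1 : ∀ w k, G w (u k) = lam w k • G w η := by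
    intro w k
    simp only [hGdef, hu, hlam, nrm, mul_apply', map_smul]
    by_cases h : w.2 = k
    · rw [if_pos h, h, proj_apply_apply (he.proj k)]
    · rw [if_neg h, he.apply_apply_ne h]; simp
  have claim2 : ∀ w, ‖G w η‖ ^ 2 ≤ κ := by
    intro w
    have h1 : G w η = e w.2 (g w.1 η) := by
      simp only [hGdef]
      rw [hA.comm _ (hg.mem w.1) _ (he.mem w.2)]; rfl
    rw [h1]
    have := proj_norm_apply_le (he.proj w.2) (g w.1 η)
    calc ‖e w.2 (g w.1 η)‖ ^ 2 ≤ ‖g w.1 η‖ ^ 2 := by gcongr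
      _ ≤ κ := hgs w.1
  have hlamM : ∀ w k, ‖lam w k‖ ^ 2 ≤ M := by
    intro w k
    have h1 : (‖e k η‖⁻¹) ^ 2 ≤ M :=
      Finset.single_le_sum (f := fun k => (‖e k η‖⁻¹) ^ 2) (fun k _ => sq_nonneg _)
        (Finset.mem_univ k)
    simp only [hlam]
    split_ifs
    · simpa using h1
    · simpa using hMnn
  have claim3 : ∀ w k, ‖G w (u k)‖ ^ 2 ≤ κ' := by
    intro w k
    rw [claim1, norm_smul, mul_pow]
    calc ‖lam w k‖ ^ 2 * ‖G w η‖ ^ 2 ≤ M * κ := by
          apply mul_le_mul (hlamM w k) (claim2 w) (sq_nonneg _) hMnn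
      _ ≤ κ' := by
          rw [hκ, mul_div_assoc']
          rw [div_le_iff₀ (by positivity)]
          nlinarith
  set d : U × I → ℝ := fun w => (⟪G w η, x (G w η)⟫_ℂ).re / ‖G w η‖ ^ 2 with hd'
  have claim4 : ∀ w, ⟪G w η, x (G w η)⟫_ℂ = (d w : ℂ) * ((‖G w η‖ ^ 2 : ℝ) : ℂ) := by
    intro w
    by_cases h0 : G w η = 0
    · simp [h0]
    · have hne : ‖G w η‖ ^ 2 ≠ 0 := by
        have := norm_ne_zero_iff.mpr h0
        positivity
      rw [inner_self_real hx, ← Complex.ofReal_mul]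
      congr 1
      simp only [hd']
      field_simp
  have claim5 : ∀ w, ‖(d w : ℂ)‖ ≤ ‖x‖ := by
    intro w
    rw [Complex.norm_real, Real.norm_eq_abs]
    simp only [hd']
    by_cases h0 : G w η = 0
    · simp [h0]
    · have hpos : 0 < ‖G w η‖ ^ 2 := by
        have := norm_pos_iff.mpr h0
        positivity
      rw [abs_div, abs_of_pos hpos, div_le_iff₀ hpos]
      calc |(⟪G w η, x (G w η)⟫_ℂ).re| ≤ ‖⟪G w η, x (G w η)⟫_ℂ‖ := Complex.abs_re_le_norm _
        _ ≤ ‖G w η‖ * ‖x (G w η)‖ := norm_inner_le_norm _ _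
        _ ≤ ‖G w η‖ * (‖x‖ * ‖G w η‖) := by
            gcongr
            exact x.le_opNorm _
        _ = ‖x‖ * ‖G w η‖ ^ 2 := by ring
  set a' : H →L[ℂ] H := ∑ w, (d w : ℂ) • G w with ha'
  have ha'A : a' ∈ A := sum_mem fun w _ => A.smul_mem (hG.mem w) _
  have ha'sa : IsSelfAdjoint a' := by
    unfold IsSelfAdjoint
    rw [ha', star_sum]
    apply Finset.sum_congr rfl
    intro w _
    rw [star_smul, (hG.proj w).isSelfAdjoint.star_eq]
    simp
  have ha'norm : ‖a'‖ ≤ ‖x‖ := hG.norm_sum_smul_le _ (norm_nonneg x) claim5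
  have claim6 : ∀ i k, ⟪u i, a' (u k)⟫_ℂ = ∑ w, ⟪G w (u i), x (G w (u k))⟫_ℂ := by
    intro i k
    rw [ha', sum_apply, inner_sum]
    apply Finset.sum_congr rfl
    intro w _
    rw [smul_apply, inner_smul_right]
    have h1 : ⟪u i, G w (u k)⟫_ℂ = ⟪G w (u i), G w (u k)⟫_ℂ := by
      rw [inner_sa (hG.proj w).isSelfAdjoint, proj_apply_apply (hG.proj w)]
    rw [h1, claim1 w i, claim1 w k, map_smul, inner_smul_left, inner_smul_right, inner_smul_left,
      inner_smul_right, claim4 w, inner_self_eq_norm_sq_to_K]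
    push_cast
    have : ((‖G w η‖ : ℝ) : ℂ) = (RCLike.ofReal ‖G w η‖ : ℂ) := rfl
    rw [← this]
    ring
  set t : I × I → (U × I) × (U × I) → ℂ :=
    fun ik ww => ⟪G ww.1 (u ik.1), x (G ww.2 (u ik.2))⟫_ℂ with ht
  obtain ⟨c, hc⟩ := exists_colouring (U := U × I) hr t
  set p : Fin r → (H →L[ℂ] H) := fun j => ∑ w, if c w = j then G w else 0 with hp
  have hpP : IsPart A p 1 := hG.colour c
  set ρ : ℝ := 1 / r with hρ
  have hρ0 : 0 < ρ := by positivity
  have hρ1 : ρ ≤ 1 := by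
    rw [hρ, div_le_one (by positivity)]
    exact_mod_cast hr
  set a : H →L[ℂ] H := ((1 - ρ : ℝ) : ℂ) • a' with ha
  have haA : a ∈ A := A.smul_mem ha'A _
  have hasa : IsSelfAdjoint a := by
    unfold IsSelfAdjoint
    rw [ha, star_smul, ha'sa.star_eq]
    simp
  have hanorm : ‖a‖ ≤ (1 - 1 / r) * ‖x‖ := by
    rw [ha, norm_smul, Complex.norm_real, Real.norm_eq_abs, abs_of_nonneg (by linarith)]
    exact mul_le_mul_of_nonneg_left ha'norm (by linarith)
  refine ⟨p, a, hpP, haA, hasa, hanorm, ?_⟩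
  set D : H →L[ℂ] H := pinching p x - a - ((ρ : ℝ) : ℂ) • x with hD
  have claim7 : ∀ i k, ⟪u i, D (u k)⟫_ℂ
      = ∑ ww : (U × I) × (U × I), cInd r ww.1 ww.2 c • t (i, k) ww := by
    intro i k
    have hR : ∑ ww : (U × I) × (U × I), cInd r ww.1 ww.2 c • t (i, k) ww
        = ∑ w : U × I, ∑ w' : U × I, cInd r w w' c • t (i, k) (w, w') :=
      Fintype.sum_prod_type _
    rw [hR, hD, sub_apply, sub_apply, inner_sub_right, inner_sub_right, smul_apply,
      inner_smul_right, smul_apply, inner_smul_right, claim6, hp, inner_pinching_colour hG c,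
      inner_expand hG x (u i) (u k)]
    rw [Finset.mul_sum, Finset.mul_sum, ← Finset.sum_sub_distrib, ← Finset.sum_sub_distrib]
    apply Finset.sum_congr rfl
    intro w _
    rw [Finset.mul_sum]
    have h1 : ((1 - ρ : ℝ) : ℂ) * ⟪G w (u i), x (G w (u k))⟫_ℂ
        = ∑ w', (if w = w' then ((1 - ρ : ℝ) : ℂ) else 0) * ⟪G w (u i), x (G w' (u k))⟫_ℂ := by
      rw [Finset.sum_eq_single w]
      · simp
      · intro w' _ hne
        rw [if_neg hne.symm, zero_mul]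
      · intro h; exact absurd (Finset.mem_univ w) h
    rw [h1, ← Finset.sum_sub_distrib, ← Finset.sum_sub_distrib]
    apply Finset.sum_congr rfl
    intro w' _
    have hρc : ((ρ : ℝ) : ℂ) = 1 / (r : ℂ) := by rw [hρ]; push_cast; rfl
    simp only [ht, cInd, Complex.real_smul]
    by_cases hw : w = w'
    · subst hw
      simp
      ring
    · simp only [hw, if_false]
      by_cases hcw : c w = c w'
      · simp only [hcw, if_true]
        push_cast
        rw [hρc]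
        ring
      · simp only [hcw, if_false]
        push_cast
        rw [hρc]
        ring
  have hbessel : ∀ ik : I × I, ∑ ww : (U × I) × (U × I), ‖t ik ww‖ ^ 2 ≤ κ' * ‖x‖ ^ 2 := by
    intro ik
    rw [Fintype.sum_prod_type]
    have h1 := sum_norm_sq_entries_le hG x (u ik.1) (u ik.2) hκ'pos.le (fun w => claim3 w ik.1)
    refine h1.trans ?_
    have h2 : ‖u ik.2‖ ^ 2 ≤ 1 := by
      have := nrm_norm_le (e ik.2 η)
      have h3 : ‖u ik.2‖ ≤ 1 := this
      nlinarith [norm_nonneg (u ik.2)]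
    have h3 : 0 ≤ ‖x‖ ^ 2 := sq_nonneg _
    apply mul_le_mul_of_nonneg_left _ hκ'pos.le
    nlinarith
  have claim8 : ∑ ik : I × I, ‖⟪u ik.1, D (u ik.2)⟫_ℂ‖ ^ 2 ≤ (τ * ‖x‖) ^ 2 := by
    calc ∑ ik : I × I, ‖⟪u ik.1, D (u ik.2)⟫_ℂ‖ ^ 2
        = ∑ ik : I × I, ‖∑ ww : (U × I) × (U × I), cInd r ww.1 ww.2 c • t ik ww‖ ^ 2 := by
          apply Finset.sum_congr rfl
          intro ik _
          rw [claim7 ik.1 ik.2]
      _ ≤ 2 * ∑ ik : I × I, ∑ ww : (U × I) × (U × I), ‖t ik ww‖ ^ 2 := hc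
      _ ≤ 2 * ∑ _ik : I × I, κ' * ‖x‖ ^ 2 := by
          gcongr with ik _
          exact hbessel ik
      _ = 2 * (N2 * (κ' * ‖x‖ ^ 2)) := by
          rw [Finset.sum_const, Finset.card_univ, nsmul_eq_mul]
      _ ≤ (τ * ‖x‖) ^ 2 := by
          have h1 : 2 * (N2 * κ') ≤ τ ^ 2 := by
            rw [hκ', mul_div_assoc', mul_div_assoc', div_le_iff₀ (by positivity)]
            nlinarith [sq_nonneg τ]
          have h3 : 0 ≤ ‖x‖ ^ 2 := sq_nonneg _
          nlinarith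
  have claim9 : ∀ ik : I × I, ‖⟪u ik.1, D (u ik.2)⟫_ℂ‖ ≤ τ * ‖x‖ := by
    intro ik
    have h1 : ‖⟪u ik.1, D (u ik.2)⟫_ℂ‖ ^ 2 ≤ (τ * ‖x‖) ^ 2 :=
      (Finset.single_le_sum (f := fun ik : I × I => ‖⟪u ik.1, D (u ik.2)⟫_ℂ‖ ^ 2)
        (fun _ _ => sq_nonneg _) (Finset.mem_univ ik)).trans claim8
    exact (pow_le_pow_iff_left₀ (norm_nonneg _) (by positivity) two_ne_zero).mp h1
  calc ‖frameProj u * D * frameProj u‖ ≤ ∑ i, ∑ k, ‖⟪u i, D (u k)⟫_ℂ‖ :=
        norm_compress_le u (fun i => nrm_norm_le _) D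
    _ = ∑ ik : I × I, ‖⟪u ik.1, D (u ik.2)⟫_ℂ‖ := by rw [Fintype.sum_prod_type]
    _ ≤ ∑ _ik : I × I, τ * ‖x‖ := Finset.sum_le_sum fun ik _ => claim9 ik
    _ = N2 * (τ * ‖x‖) := by rw [Finset.sum_const, Finset.card_univ, nsmul_eq_mul]
    _ ≤ θ * ‖x‖ := by
        have h1 : N2 * τ ≤ θ := by
          rw [hτ, mul_div_assoc', div_le_iff₀ (by positivity)]
          nlinarith
        have := norm_nonneg x
        nlinarith

/-- **Upper bound.** Over a diffuse MASA of `B(H)` every self-adjoint operator is `(ε, r)`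
so-pavable as soon as `r * ε > 1`. -/
theorem IsMASA.soPavable_of_diffuse (hA : IsMASA ⊤ A) (hd : IsDiffuse A) {x : H →L[ℂ] H}
    (hx : IsSelfAdjoint x) {r : ℕ} {ε : ℝ} (hε : 1 < r * ε) : SoPavable ⊤ A x ε r := by
  classical
  have hr : 0 < r := by
    rcases Nat.eq_zero_or_pos r with h | h
    · rw [h] at hε; norm_num at hε
    · exact h
  have hr' : (0 : ℝ) < r := by exact_mod_cast hr
  intro F δ hδ
  obtain ⟨η, I, _, e, he, hF⟩ := hA.exists_coarse F hδ
  have hθ : 0 < ε - 1 / r := by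
    rw [sub_pos, div_lt_iff₀ hr']
    linarith
  obtain ⟨p, a, hp, haA, hasa, hanorm', hmain⟩ := hA.core hd hx hr η he hθ
  have hanorm : ‖a‖ ≤ ‖x‖ := by
    refine hanorm'.trans ?_
    have h1 : (0 : ℝ) ≤ 1 / r := by positivity
    nlinarith [norm_nonneg x]
  set u : I → H := fun i => nrm (e i η) with hu
  set q := frameProj u with hq
  have ho : ∀ i k, i ≠ k → ⟪u i, u k⟫_ℂ = 0 := by
    intro i k hik
    simp only [hu, nrm]
    rw [inner_smul_left, inner_smul_right, he.inner_eq_zero hik]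
    simp
  have hqp : IsStarProjection q := frameProj_isStarProjection u ho (fun i => nrm_norm _)
  have hqnorm : ‖q‖ ≤ 1 := IsStarProjection.norm_le q hqp
  have hqe : ∀ i, q (e i η) = e i η := by
    intro i
    rw [hq, frameProj_apply, Finset.sum_eq_single i]
    · exact inner_nrm_smul _
    · intro k _ hki
      simp only [hu, nrm]
      rw [inner_smul_left, he.inner_eq_zero hki]
      simp
    · intro h; exact absurd (Finset.mem_univ i) h
  refine ⟨p, a, q, hp.toPartitionIn, ⟨haA, hasa, hanorm⟩, ⟨by trivial, hqp⟩, ?_, ?_⟩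
  · intro ξ hξ
    obtain ⟨c, hc⟩ := hF ξ hξ
    set y := ∑ i, c i • e i η with hy
    have hqy : q y = y := by
      rw [hy, map_sum]
      apply Finset.sum_congr rfl
      intro i _
      rw [map_smul, hqe]
    have h1 : (1 - q) ξ = (1 - q) (ξ - y) := by
      simp [hqy]
    rw [h1]
    exact (proj_norm_apply_le hqp.one_sub _).trans_lt hc
  · have hdec : q * (pinching p x - a) * q
        = q * (pinching p x - a - ((1 / r : ℝ) : ℂ) • x) * q
          + ((1 / r : ℝ) : ℂ) • (q * x * q) := by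
      simp only [mul_sub, sub_mul, mul_smul_comm, smul_mul_assoc]
      abel
    rw [hdec]
    have h2 : ‖q * x * q‖ ≤ ‖x‖ := by
      calc ‖q * x * q‖ ≤ ‖q * x‖ * ‖q‖ := norm_mul_le _ _
        _ ≤ (‖q‖ * ‖x‖) * ‖q‖ := by gcongr; exact norm_mul_le _ _
        _ ≤ (1 * ‖x‖) * 1 := by gcongr
        _ = ‖x‖ := by ring
    calc _ ≤ ‖q * (pinching p x - a - ((1 / r : ℝ) : ℂ) • x) * q‖
          + ‖((1 / r : ℝ) : ℂ) • (q * x * q)‖ := norm_add_le _ _
      _ ≤ (ε - 1 / r) * ‖x‖ + 1 / r * ‖x‖ := by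
          apply add_le_add hmain
          rw [norm_smul, Complex.norm_real, Real.norm_eq_abs, abs_of_nonneg (by positivity)]
          gcongr
      _ = ε * ‖x‖ := by ring

end Vale.Agent.P078
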