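import Vale.Agent.P078.Proj

/-!
# P078: threshold projections and approximation by simple elements in a MASA of `B(H)`
-/

namespace Vale.Agent.P078

open scoped InnerProductSpace

variable {H : Type*} [NormedAddCommGroup H] [InnerProductSpace ℂ H] [CompleteSpace H]

/-- If `a` maps `K` into `K` then it maps the closure of `K` into itself. -/
lemma map_topologicalClosure {K : Submodule ℂ H} {a : H →L[ℂ] H} (h : ∀ x ∈ K, a x ∈ K) :
    ∀ x ∈ K.topologicalClosure, a x ∈ K.topologicalClosure := by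
  intro x hx
  have hx' : x ∈ closure (K : Set H) := hx
  exact map_mem_closure a.continuous hx' (fun y hy => h y hy)

/-- Threshold projection: the range projection of the positive part of a self-adjoint element. -/
lemma IsMASA.exists_threshold {A : StarSubalgebra ℂ (H →L[ℂ] H)} (hA : IsMASA ⊤ A)
    {c : H →L[ℂ] H} (hc : c ∈ A) (hsa : IsSelfAdjoint c) :
    ∃ e ∈ A, IsStarProjection e ∧ c * e = c⁺ ∧ c * (1 - e) = - c⁻ := by
  set K : Submodule ℂ H := (c⁺).range.topologicalClosure with hK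
  have hpos_sa : IsSelfAdjoint (c⁺) := IsSelfAdjoint.of_nonneg (CFC.posPart_nonneg c)
  have hep : IsStarProjection K.starProjection := isStarProjection_starProjection
  have hmem : K.starProjection ∈ A := by
    apply hA.starProjection_mem
    intro a ha
    apply map_topologicalClosure
    rintro x ⟨y, rfl⟩
    have hcomm : Commute c a := hA.comm c hc a ha
    have h2 : Commute (c⁺) a := by
      rw [CFC.posPart_def]
      exact hcomm.cfcₙ_real _
    refine ⟨a y, ?_⟩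
    have := congrArg (fun T : H →L[ℂ] H => T y) h2.eq
    simpa [mul_apply'] using this
  have h1 : K.starProjection * c⁺ = c⁺ := by
    ext x
    simp only [mul_apply']
    apply Submodule.starProjection_eq_self_iff.mpr
    exact Submodule.le_topologicalClosure _ ⟨x, rfl⟩
  have h1' : c⁺ * K.starProjection = c⁺ := by
    have := congrArg star h1
    simpa [hpos_sa.star_eq, hep.isSelfAdjoint.star_eq] using this
  have h2 : c⁻ * K.starProjection = 0 := by
    have hle : K ≤ (c⁻).ker := by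
      apply Submodule.topologicalClosure_minimal
      · rintro x ⟨y, rfl⟩
        have h3 : c⁻ * c⁺ = 0 := CFC.negPart_mul_posPart c
        have h4 : (c⁻ * c⁺) y = (0 : H →L[ℂ] H) y := by rw [h3]
        exact h4
      · exact (c⁻).isClosed_ker
    ext x
    simp only [mul_apply']
    exact hle (K.starProjection_apply_mem x)
  have hdec : c = c⁺ - c⁻ := (CFC.posPart_sub_negPart c hsa).symm
  have h3 : c * K.starProjection = c⁺ := by
    calc c * K.starProjection = (c⁺ - c⁻) * K.starProjection := by rw [← hdec]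
      _ = c⁺ := by rw [sub_mul, h1', h2, sub_zero]
  refine ⟨K.starProjection, hmem, hep, h3, ?_⟩
  rw [mul_sub, mul_one, h3]
  calc c - c⁺ = (c⁺ - c⁻) - c⁺ := by rw [← hdec]
    _ = - c⁻ := by abel

/-- Simple elements: finite linear combinations over a partition of `1` in `A`. -/
def IsSimple (A : StarSubalgebra ℂ (H →L[ℂ] H)) (s : H →L[ℂ] H) : Prop :=
  ∃ (I : Type) (_ : Fintype I) (e : I → (H →L[ℂ] H)) (c : I → ℂ),
    IsPart A e 1 ∧ s = ∑ i, c i • e i

namespace IsSimple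

variable {A : StarSubalgebra ℂ (H →L[ℂ] H)} {s s' : H →L[ℂ] H}

lemma mem (hs : IsSimple A s) : s ∈ A := by
  obtain ⟨I, _, e, c, he, rfl⟩ := hs
  exact sum_mem fun i _ => A.smul_mem (he.mem i) _

lemma add (hcomm : ∀ a ∈ A, ∀ b ∈ A, a * b = b * a) (hs : IsSimple A s) (hs' : IsSimple A s') :
    IsSimple A (s + s') := by
  obtain ⟨I, _, e, c, he, rfl⟩ := hs
  obtain ⟨I', _, e', c', he', rfl⟩ := hs'
  refine ⟨I × I', inferInstance, fun w => e w.1 * e' w.2, fun w => c w.1 + c' w.2, ?_, ?_⟩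
  · simpa using he.prod hcomm he'
  · simp_rw [add_smul, Finset.sum_add_distrib, Fintype.sum_prod_type]
    congr 1
    · apply Finset.sum_congr rfl
      intro i _
      rw [← Finset.smul_sum, ← Finset.mul_sum, he'.sum_eq, mul_one]
    · rw [Finset.sum_comm]
      apply Finset.sum_congr rfl
      intro j _
      rw [← Finset.smul_sum, ← Finset.sum_mul, he.sum_eq, one_mul]

lemma smul (z : ℂ) (hs : IsSimple A s) : IsSimple A (z • s) := by
  obtain ⟨I, _, e, c, he, rfl⟩ := hs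
  refine ⟨I, inferInstance, e, fun i => z * c i, he, ?_⟩
  rw [Finset.smul_sum]
  exact Finset.sum_congr rfl fun i _ => by rw [smul_smul]

lemma of_proj {f : H →L[ℂ] H} (hf : f ∈ A) (hfp : IsStarProjection f) : IsSimple A f := by
  refine ⟨Bool, inferInstance, fun b => if b then f else 1 - f, fun b => if b then 1 else 0,
    IsPart.pair (one_mem A) (IsStarProjection.one _) hf hfp (mul_one f), ?_⟩
  simp

lemma one : IsSimple A (1 : H →L[ℂ] H) := of_proj (one_mem A) (IsStarProjection.one _)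

end IsSimple

lemma real_smul_one_sa (t : ℝ) : IsSelfAdjoint ((t : ℂ) • (1 : H →L[ℂ] H)) := by
  unfold IsSelfAdjoint
  simp

lemma norm_real_smul_one_le {t : ℝ} (ht : 0 ≤ t) : ‖(t : ℂ) • (1 : H →L[ℂ] H)‖ ≤ t := by
  rw [norm_smul]
  have h1 : ‖(1 : H →L[ℂ] H)‖ ≤ 1 := ContinuousLinearMap.norm_id_le
  have h2 : ‖(t : ℂ)‖ = t := by simp [abs_of_nonneg ht]
  rw [h2]
  nlinarith

/-- One bisection step. -/
lemma IsMASA.bisect {A : StarSubalgebra ℂ (H →L[ℂ] H)} (hA : IsMASA ⊤ A) {d : H →L[ℂ] H}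
    (hd : d ∈ A) (τ : ℝ) (h0 : 0 ≤ d) (h1 : d ≤ ((2 * τ : ℝ) : ℂ) • (1 : H →L[ℂ] H)) :
    ∃ e ∈ A, IsStarProjection e ∧ 0 ≤ d - (τ : ℂ) • e ∧
      d - (τ : ℂ) • e ≤ (τ : ℂ) • (1 : H →L[ℂ] H) := by
  set T : H →L[ℂ] H := (τ : ℂ) • (1 : H →L[ℂ] H) with hT
  have hTA : T ∈ A := A.smul_mem (one_mem A) _
  have hdsa : IsSelfAdjoint d := IsSelfAdjoint.of_nonneg h0
  have hcsa : IsSelfAdjoint (d - T) := hdsa.sub (real_smul_one_sa τ)
  obtain ⟨e, heA, hep, he1, he2⟩ := hA.exists_threshold (sub_mem hd hTA) hcsa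
  have hee : e * e = e := hep.isIdempotentElem.eq
  have hed : e * d = d * e := hA.comm e heA d hd
  have hTe : T * e = (τ : ℂ) • e := by rw [hT, smul_mul_assoc, one_mul]
  have heT : e * T = (τ : ℂ) • e := by rw [hT, mul_smul_comm, mul_one]
  have h2T : ((2 * τ : ℝ) : ℂ) • (1 : H →L[ℂ] H) = T + T := by
    rw [hT, ← add_smul]; push_cast; ring_nf
  refine ⟨e, heA, hep, ?_, ?_⟩
  · have key : d - (τ : ℂ) • e = (d - T)⁺ + (1 - e) * d * (1 - e) := by
      rw [← he1, ← hTe]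
      have : (1 - e) * d * (1 - e) = d - d * e := by
        simp only [sub_mul, mul_sub, one_mul, mul_one]
        rw [hed, mul_assoc, hee]
        abel
      rw [this]
      simp only [sub_mul]
      abel
    rw [key]
    exact add_nonneg (CFC.posPart_nonneg _)
      (IsSelfAdjoint.conjugate_nonneg h0 ((IsSelfAdjoint.one _).sub hep.isSelfAdjoint))
  · have key : T - (d - (τ : ℂ) • e) = (d - T)⁻ + e * (T + T - d) * e := by
      have h3 : (d - T)⁻ = - ((d - T) * (1 - e)) := by rw [he2, neg_neg]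
      rw [h3, ← hTe]
      have : e * (T + T - d) * e = T * e + T * e - d * e := by
        simp only [sub_mul, mul_sub, add_mul, mul_add]
        rw [hed, mul_assoc d, hee, heT, ← hTe, mul_assoc T, hee]
      rw [this]
      simp only [sub_mul, mul_sub, mul_one]
      abel
    rw [← sub_nonneg, key]
    apply add_nonneg (CFC.negPart_nonneg _)
    apply IsSelfAdjoint.conjugate_nonneg _ hep.isSelfAdjoint
    rw [sub_nonneg, ← h2T]
    exact h1

/-- Self-adjoint elements of a MASA of `B(H)` are norm limits of simple elements. -/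
lemma IsMASA.approx_sa {A : StarSubalgebra ℂ (H →L[ℂ] H)} (hA : IsMASA ⊤ A) {b : H →L[ℂ] H}
    (hb : b ∈ A) (hsa : IsSelfAdjoint b) (k : ℕ) :
    ∃ s, IsSimple A s ∧ 0 ≤ b - s ∧
      b - s ≤ ((2 * ‖b‖ / 2 ^ k : ℝ) : ℂ) • (1 : H →L[ℂ] H) := by
  have hconv : ∀ t : ℝ, algebraMap ℝ (H →L[ℂ] H) t = (t : ℂ) • (1 : H →L[ℂ] H) := by
    intro t
    rw [Algebra.algebraMap_eq_smul_one, Complex.coe_smul]
  induction k with
  | zero =>
    refine ⟨((-‖b‖ : ℝ) : ℂ) • (1 : H →L[ℂ] H), IsSimple.one.smul _, ?_, ?_⟩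
    · have := hsa.neg_algebraMap_norm_le_self
      rw [hconv] at this
      rw [sub_nonneg]
      convert this using 1
      push_cast
      rw [neg_smul]
    · have := hsa.le_algebraMap_norm_self
      rw [hconv] at this
      have h2 : ((2 * ‖b‖ / 2 ^ 0 : ℝ) : ℂ) • (1 : H →L[ℂ] H)
          = (‖b‖ : ℂ) • (1 : H →L[ℂ] H) - ((-‖b‖ : ℝ) : ℂ) • (1 : H →L[ℂ] H) := by
        rw [← sub_smul]; push_cast; ring_nf
      rw [h2]
      exact sub_le_sub_right this _
  | succ k ih =>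
    obtain ⟨s, hs, h0, h1⟩ := ih
    have h1' : b - s ≤ ((2 * (2 * ‖b‖ / 2 ^ (k + 1)) : ℝ) : ℂ) • (1 : H →L[ℂ] H) := by
      convert h1 using 3
      rw [pow_succ]; field_simp
    obtain ⟨e, heA, hep, g0, g1⟩ := hA.bisect (sub_mem hb hs.mem) _ h0 h1'
    refine ⟨s + ((2 * ‖b‖ / 2 ^ (k + 1) : ℝ) : ℂ) • e,
      hs.add hA.comm ((IsSimple.of_proj heA hep).smul _), ?_, ?_⟩
    · rwa [← sub_sub]
    · rwa [← sub_sub]

lemma IsMASA.approx_sa' {A : StarSubalgebra ℂ (H →L[ℂ] H)} (hA : IsMASA ⊤ A) {b : H →L[ℂ] H}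
    (hb : b ∈ A) (hsa : IsSelfAdjoint b) {κ : ℝ} (hκ : 0 < κ) :
    ∃ s, IsSimple A s ∧ ‖b - s‖ ≤ κ := by
  obtain ⟨k, hk⟩ : ∃ k : ℕ, 2 * ‖b‖ / 2 ^ k ≤ κ := by
    obtain ⟨k, hk⟩ := exists_nat_gt (2 * ‖b‖ / κ)
    refine ⟨k, ?_⟩
    have h2 : (k : ℝ) < 2 ^ k := by exact_mod_cast Nat.lt_two_pow_self
    rw [div_le_iff₀ (by positivity)]
    rw [div_lt_iff₀ hκ] at hk
    nlinarith
  obtain ⟨s, hs, h0, h1⟩ := hA.approx_sa hb hsa k
  refine ⟨s, hs, ?_⟩
  calc ‖b - s‖ ≤ ‖((2 * ‖b‖ / 2 ^ k : ℝ) : ℂ) • (1 : H →L[ℂ] H)‖ :=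
        CStarAlgebra.norm_le_norm_of_nonneg_of_le h0 h1
    _ ≤ 2 * ‖b‖ / 2 ^ k := norm_real_smul_one_le (by positivity)
    _ ≤ κ := hk

/-- Every element of a MASA of `B(H)` is a norm limit of simple elements. -/
lemma IsMASA.approx_simple {A : StarSubalgebra ℂ (H →L[ℂ] H)} (hA : IsMASA ⊤ A) {b : H →L[ℂ] H}
    (hb : b ∈ A) {κ : ℝ} (hκ : 0 < κ) :
    ∃ s, IsSimple A s ∧ ‖b - s‖ ≤ κ := by
  have hre : ((realPart b : selfAdjoint (H →L[ℂ] H)) : H →L[ℂ] H) ∈ A := by
    rw [realPart_apply_coe]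
    exact A.smul_mem (add_mem hb (star_mem hb)) _
  have him : ((imaginaryPart b : selfAdjoint (H →L[ℂ] H)) : H →L[ℂ] H) ∈ A := by
    rw [imaginaryPart_apply_coe]
    exact A.smul_mem (A.smul_mem (sub_mem hb (star_mem hb)) _) _
  obtain ⟨s1, hs1, h1⟩ := hA.approx_sa' hre (realPart b).2 (half_pos hκ)
  obtain ⟨s2, hs2, h2⟩ := hA.approx_sa' him (imaginaryPart b).2 (half_pos hκ)
  refine ⟨s1 + Complex.I • s2, hs1.add hA.comm (hs2.smul _), ?_⟩
  have hdec : b - (s1 + Complex.I • s2)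
      = ((realPart b : selfAdjoint (H →L[ℂ] H)) - s1)
        + Complex.I • (((imaginaryPart b : selfAdjoint (H →L[ℂ] H)) : H →L[ℂ] H) - s2) := by
    conv_lhs => rw [← realPart_add_I_smul_imaginaryPart b]
    rw [smul_sub]
    abel
  rw [hdec]
  calc _ ≤ ‖((realPart b : selfAdjoint (H →L[ℂ] H)) : H →L[ℂ] H) - s1‖
        + ‖Complex.I • (((imaginaryPart b : selfAdjoint (H →L[ℂ] H)) : H →L[ℂ] H) - s2)‖ :=
        norm_add_le _ _
    _ ≤ κ / 2 + κ / 2 := by
        rw [norm_smul, Complex.norm_I, one_mul]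
        exact add_le_add h1 h2
    _ = κ := by ring

end Vale.Agent.P078
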