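import Vale.Agent.P078.DefsDiag
import Vale.Agent.P078.Upper

/-!
# P078: transfer of paving from the diagonal MASAs of matrix algebras to all MASAs of `B(H)`
-/

namespace Vale.Agent.P078

open scoped InnerProductSpace

variable {H : Type*} [NormedAddCommGroup H] [InnerProductSpace ℂ H] [CompleteSpace H]
variable {E : Type*} [NormedAddCommGroup E] [InnerProductSpace ℂ E] [CompleteSpace E]
variable {A : StarSubalgebra ℂ (H →L[ℂ] H)}

section abstract

variable {I : Type*} [Fintype I] (b : I → E) (u : I → H)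

/-- The map `E → H` sending `b i` to `u i`. -/
noncomputable def liftV : E →L[ℂ] H := ∑ i, InnerProductSpace.rankOne ℂ (u i) (b i)

/-- The map `H → E` sending `u i` to `b i`. -/
noncomputable def liftW : H →L[ℂ] E := ∑ i, InnerProductSpace.rankOne ℂ (b i) (u i)

lemma liftV_apply (w : E) : liftV b u w = ∑ i, ⟪b i, w⟫_ℂ • u i := by simp [liftV]

lemma liftW_apply (ζ : H) : liftW b u ζ = ∑ i, ⟪u i, ζ⟫_ℂ • b i := by simp [liftW]

lemma adjoint_liftV : ContinuousLinearMap.adjoint (liftV b u) = liftW b u := by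
  simp [liftV, liftW, map_sum]

lemma adjoint_liftW : ContinuousLinearMap.adjoint (liftW b u) = liftV b u := by
  simp [liftV, liftW, map_sum]

variable {b u}

lemma liftV_comp_liftW [DecidableEq I] (hb1 : ∀ i k, ⟪b i, b k⟫_ℂ = if i = k then 1 else 0) :
    (liftV b u) ∘L (liftW b u) = frameProj u := by
  ext ζ
  rw [ContinuousLinearMap.comp_apply, liftV_apply, liftW_apply, frameProj_apply]
  apply Finset.sum_congr rfl
  intro i _
  rw [inner_sum, Finset.sum_eq_single i]
  · rw [inner_smul_right, hb1, if_pos rfl, mul_one]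
  · intro k _ hki
    rw [inner_smul_right, hb1, if_neg hki.symm, mul_zero]
  · intro h; exact absurd (Finset.mem_univ i) h

lemma norm_liftW_le [DecidableEq I] (hb1 : ∀ i k, ⟪b i, b k⟫_ℂ = if i = k then 1 else 0)
    (hq : IsStarProjection (frameProj u)) : ‖liftW b u‖ ≤ 1 := by
  apply ContinuousLinearMap.opNorm_le_bound _ zero_le_one
  intro ζ
  have h1 : ⟪liftW b u ζ, liftW b u ζ⟫_ℂ = ⟪ζ, frameProj u ζ⟫_ℂ := by
    rw [← liftV_comp_liftW hb1, ContinuousLinearMap.comp_apply, ← adjoint_liftW,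
      ContinuousLinearMap.adjoint_inner_right]
  rw [proj_inner_self hq, inner_self_eq_norm_sq_to_K] at h1
  have h1' : ((‖liftW b u ζ‖ ^ 2 : ℝ) : ℂ) = ((‖frameProj u ζ‖ ^ 2 : ℝ) : ℂ) := by
    rw [← h1]; push_cast; rfl
  have h2 : ‖liftW b u ζ‖ ^ 2 = ‖frameProj u ζ‖ ^ 2 := Complex.ofReal_injective h1'
  have h3 : ‖liftW b u ζ‖ = ‖frameProj u ζ‖ :=
    (pow_left_inj₀ (norm_nonneg _) (norm_nonneg _) two_ne_zero).mp h2
  rw [h3, one_mul]
  exact proj_norm_apply_le hq ζ

lemma norm_liftV_le [DecidableEq I] (hb1 : ∀ i k, ⟪b i, b k⟫_ℂ = if i = k then 1 else 0)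
    (hq : IsStarProjection (frameProj u)) : ‖liftV b u‖ ≤ 1 := by
  rw [← adjoint_liftW, LinearIsometryEquiv.norm_map]
  exact norm_liftW_le hb1 hq

/-- The diagonal coefficient of `T` at `b i`. -/
noncomputable def dcoef (b : I → E) (T : E →L[ℂ] E) (i : I) : ℂ := ⟪b i, T (b i)⟫_ℂ

/-- The element of `A` with the same diagonal coefficients along the partition `e`. -/
noncomputable def dlift (b : I → E) (e : I → (H →L[ℂ] H)) (T : E →L[ℂ] E) : H →L[ℂ] H :=
  ∑ i, dcoef b T i • e i

/-- `T` is diagonal with respect to `b`. -/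
def IsDiag (b : I → E) (T : E →L[ℂ] E) : Prop := ∀ i, T (b i) = dcoef b T i • b i

lemma inner_diag_apply [DecidableEq I] (hb1 : ∀ i k, ⟪b i, b k⟫_ℂ = if i = k then 1 else 0)
    (hb2 : ∀ w : E, w = ∑ i, ⟪b i, w⟫_ℂ • b i) {T : E →L[ℂ] E} (hT : IsDiag b T) (i : I) (w : E) :
    ⟪b i, T w⟫_ℂ = dcoef b T i * ⟪b i, w⟫_ℂ := by
  conv_lhs => rw [hb2 w]
  rw [map_sum, inner_sum, Finset.sum_eq_single i]
  · rw [map_smul, inner_smul_right, hT i, inner_smul_right, hb1, if_pos rfl]
    ring
  · intro k _ hki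
    rw [map_smul, inner_smul_right, hT k, inner_smul_right, hb1, if_neg hki.symm]
    ring
  · intro h; exact absurd (Finset.mem_univ i) h

section lift

variable {e : I → (H →L[ℂ] H)}

lemma dlift_comp_liftV [DecidableEq I] (hb1 : ∀ i k, ⟪b i, b k⟫_ℂ = if i = k then 1 else 0)
    (hb2 : ∀ w : E, w = ∑ i, ⟪b i, w⟫_ℂ • b i)
    (heu : ∀ k i, e k (u i) = if k = i then u i else 0) {T : E →L[ℂ] E} (hT : IsDiag b T) :
    (dlift b e T) ∘L (liftV b u) = (liftV b u) ∘L T := by
  ext w
  rw [ContinuousLinearMap.comp_apply, ContinuousLinearMap.comp_apply, liftV_apply, liftV_apply,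
    map_sum]
  apply Finset.sum_congr rfl
  intro i _
  rw [map_smul, inner_diag_apply hb1 hb2 hT, dlift, sum_apply, Finset.sum_eq_single i]
  · rw [smul_apply, heu, if_pos rfl, smul_smul, mul_comm]
  · intro k _ hki
    rw [smul_apply, heu, if_neg hki, smul_zero]
  · intro h; exact absurd (Finset.mem_univ i) h

lemma liftW_comp_dlift [DecidableEq I]
    (hesa : ∀ k, IsSelfAdjoint (e k))
    (heu : ∀ k i, e k (u i) = if k = i then u i else 0) {T : E →L[ℂ] E} (hT : IsDiag b T) :
    (liftW b u) ∘L (dlift b e T) = T ∘L (liftW b u) := by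
  ext ζ
  rw [ContinuousLinearMap.comp_apply, ContinuousLinearMap.comp_apply, liftW_apply, liftW_apply,
    map_sum]
  apply Finset.sum_congr rfl
  intro i _
  rw [map_smul, hT i, smul_smul, dlift, sum_apply, inner_sum, Finset.sum_eq_single i]
  · rw [smul_apply, inner_smul_right, ← inner_sa (hesa i), heu, if_pos rfl, mul_comm]
  · intro k _ hki
    rw [smul_apply, inner_smul_right, ← inner_sa (hesa k), heu, if_neg hki, inner_zero_left,
      mul_zero]
  · intro h; exact absurd (Finset.mem_univ i) h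

lemma dcoef_mul [DecidableEq I] (hb1 : ∀ i k, ⟪b i, b k⟫_ℂ = if i = k then 1 else 0)
    {S T : E →L[ℂ] E} (hS : IsDiag b S) (hT : IsDiag b T) (i : I) :
    dcoef b (S * T) i = dcoef b S i * dcoef b T i := by
  have h1 : dcoef b (S * T) i = ⟪b i, S (T (b i))⟫_ℂ := rfl
  rw [h1, hT i, map_smul, inner_smul_right, hS i, inner_smul_right, hb1, if_pos rfl]
  ring

lemma dcoef_star (T : E →L[ℂ] E) (i : I) :
    dcoef b (star T) i = (starRingEnd ℂ) (dcoef b T i) := by
  unfold dcoef
  rw [ContinuousLinearMap.star_eq_adjoint, ContinuousLinearMap.adjoint_inner_right,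
    inner_conj_symm]

lemma dlift_mul [DecidableEq I] (hb1 : ∀ i k, ⟪b i, b k⟫_ℂ = if i = k then 1 else 0)
    (he : IsPart A e 1) {S T : E →L[ℂ] E} (hS : IsDiag b S) (hT : IsDiag b T) :
    dlift b e (S * T) = dlift b e S * dlift b e T := by
  unfold dlift
  rw [Finset.sum_mul_sum]
  apply Finset.sum_congr rfl
  intro i _
  rw [Finset.sum_eq_single i]
  · rw [smul_mul_smul_comm, (he.proj i).isIdempotentElem.eq, dcoef_mul hb1 hS hT]
  · intro k _ hki
    rw [smul_mul_smul_comm, he.orth i k hki.symm, smul_zero]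
  · intro h; exact absurd (Finset.mem_univ i) h

lemma dlift_star (he : IsPart A e 1) (T : E →L[ℂ] E) :
    dlift b e (star T) = star (dlift b e T) := by
  unfold dlift
  rw [star_sum]
  apply Finset.sum_congr rfl
  intro i _
  rw [star_smul, (he.proj i).isSelfAdjoint.star_eq, dcoef_star]
  rfl

lemma dlift_sum {J : Type*} [Fintype J] (T : J → (E →L[ℂ] E)) :
    dlift b e (∑ j, T j) = ∑ j, dlift b e (T j) := by
  unfold dlift dcoef
  rw [Finset.sum_comm]
  apply Finset.sum_congr rfl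
  intro i _
  rw [sum_apply, inner_sum, Finset.sum_smul]

lemma dlift_one [DecidableEq I] (hb1 : ∀ i k, ⟪b i, b k⟫_ℂ = if i = k then 1 else 0)
    (he : IsPart A e 1) : dlift b e (1 : E →L[ℂ] E) = 1 := by
  unfold dlift dcoef
  rw [← he.sum_eq]
  apply Finset.sum_congr rfl
  intro i _
  rw [one_apply_eq_self, hb1, if_pos rfl, one_smul]

lemma dlift_zero : dlift b e (0 : E →L[ℂ] E) = 0 := by
  unfold dlift dcoef
  simp

lemma dlift_mem (he : IsPart A e 1) (T : E →L[ℂ] E) : dlift b e T ∈ A :=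
  sum_mem fun i _ => A.smul_mem (he.mem i) _

lemma norm_dlift_le (hbn : ∀ i, ‖b i‖ ≤ 1) (he : IsPart A e 1) (T : E →L[ℂ] E) :
    ‖dlift b e T‖ ≤ ‖T‖ := by
  apply he.norm_sum_smul_le _ (norm_nonneg _)
  intro i
  unfold dcoef
  calc ‖⟪b i, T (b i)⟫_ℂ‖ ≤ ‖b i‖ * ‖T (b i)‖ := norm_inner_le_norm _ _
    _ ≤ ‖b i‖ * (‖T‖ * ‖b i‖) := by gcongr; exact T.le_opNorm _
    _ ≤ 1 * (‖T‖ * 1) := by
        have := hbn i
        gcongr
    _ = ‖T‖ := by ring

end lift

end abstract

section main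

variable {I : Type*} [Fintype I] [DecidableEq I] {b : I → E} {e : I → (H →L[ℂ] H)}

lemma apply_nrm (he : IsPart A e 1) (η : H) (k i : I) :
    e k (nrm (e i η)) = if k = i then nrm (e i η) else 0 := by
  unfold nrm
  rw [map_smul]
  by_cases h : k = i
  · rw [if_pos h, h, proj_apply_apply (he.proj i)]
  · rw [if_neg h, he.apply_apply_ne h, smul_zero]

lemma frame_nrm_proj (he : IsPart A e 1) (η : H) :
    IsStarProjection (frameProj fun i => nrm (e i η)) := by
  apply frameProj_isStarProjection _ _ (fun i => nrm_norm _)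
  intro i k hik
  simp only [nrm]
  rw [inner_smul_left, inner_smul_right, he.inner_eq_zero hik]
  simp

lemma frame_nrm_apply (he : IsPart A e 1) (η : H) (i : I) :
    frameProj (fun i => nrm (e i η)) (e i η) = e i η := by
  rw [frameProj_apply, Finset.sum_eq_single i]
  · exact inner_nrm_smul _
  · intro k _ hki
    simp only [nrm]
    rw [inner_smul_left, he.inner_eq_zero hki]
    simp
  · intro h; exact absurd (Finset.mem_univ i) h

lemma frame_nrm_apply_nrm (he : IsPart A e 1) (η : H) (i : I) :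
    frameProj (fun i => nrm (e i η)) (nrm (e i η)) = nrm (e i η) := by
  conv_lhs => rw [nrm, map_smul, frame_nrm_apply he η i]
  rfl

/-- The compression identity behind the transfer. -/
lemma transfer_identity (hb1 : ∀ i k, ⟪b i, b k⟫_ℂ = if i = k then 1 else 0)
    (hb2 : ∀ w : E, w = ∑ i, ⟪b i, w⟫_ℂ • b i) (he : IsPart A e 1) (η : H) (x : H →L[ℂ] H)
    {r : ℕ} {p₀ : Fin r → (E →L[ℂ] E)} {a₀ : E →L[ℂ] E} (hp₀ : ∀ j, IsDiag b (p₀ j))
    (ha₀ : IsDiag b a₀) :
    frameProj (fun i => nrm (e i η)) * (pinching (fun j => dlift b e (p₀ j)) x - dlift b e a₀)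
        * frameProj (fun i => nrm (e i η))
      = (liftV b fun i => nrm (e i η)) ∘L
          (pinching p₀ ((liftW b fun i => nrm (e i η)) ∘L x ∘L (liftV b fun i => nrm (e i η))) - a₀)
          ∘L (liftW b fun i => nrm (e i η)) := by
  set u : I → H := fun i => nrm (e i η) with hu
  have heu : ∀ k i, e k (u i) = if k = i then u i else 0 := fun k i => apply_nrm he η k i
  have hesa : ∀ k, IsSelfAdjoint (e k) := fun k => (he.proj k).isSelfAdjoint
  have hq : ∀ ζ, frameProj u ζ = liftV b u (liftW b u ζ) := by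
    intro ζ
    rw [← liftV_comp_liftW hb1]; rfl
  have hWq : ∀ ζ, liftW b u (liftV b u (liftW b u ζ)) = liftW b u ζ := by
    intro ζ
    rw [← hq, liftW_apply, liftW_apply]
    apply Finset.sum_congr rfl
    intro i _
    rw [← inner_sa (frameProj_sa u), frame_nrm_apply_nrm he η i]
  have h1 : ∀ (T : E →L[ℂ] E), IsDiag b T → ∀ w, dlift b e T (liftV b u w) = liftV b u (T w) := by
    intro T hT w
    have := congrArg (fun S : E →L[ℂ] H => S w) (dlift_comp_liftV hb1 hb2 heu hT)
    exact this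
  have h2 : ∀ (T : E →L[ℂ] E), IsDiag b T → ∀ ζ, liftW b u (dlift b e T ζ) = T (liftW b u ζ) := by
    intro T hT ζ
    have := congrArg (fun S : H →L[ℂ] E => S ζ) (liftW_comp_dlift (b := b) hesa heu hT)
    exact this
  ext ζ
  simp only [mul_apply', ContinuousLinearMap.comp_apply, sub_apply, pinching, sum_apply, map_sub,
    map_sum]
  congr 1
  · apply Finset.sum_congr rfl
    intro j _
    rw [hq ζ, h1 _ (hp₀ j), hq, h2 _ (hp₀ j)]
  · rw [hq (dlift b e a₀ (frameProj u ζ)), h2 _ ha₀, hq ζ, hWq]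

end main

end Vale.Agent.P078
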