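import Vale.Agent.P078.Transfer
import Vale.Agent.P078.DefsNumber

/-!
# P078: transfer of paving from the diagonal MASAs of matrix algebras to all MASAs of `B(H)`
-/

namespace Vale.Agent.P078

open scoped InnerProductSpace

variable {H : Type*} [NormedAddCommGroup H] [InnerProductSpace ℂ H] [CompleteSpace H]
variable {A : StarSubalgebra ℂ (H →L[ℂ] H)}

/-- The standard basis of `ℂ^n`. -/
noncomputable def stdb (n : ℕ) (i : Fin n) : EuclideanSpace ℂ (Fin n) :=
  EuclideanSpace.single i (1 : ℂ)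

lemma stdb_inner (n : ℕ) (i k : Fin n) : ⟪stdb n i, stdb n k⟫_ℂ = if i = k then 1 else 0 := by
  unfold stdb
  rw [EuclideanSpace.inner_single_left]
  by_cases h : i = k
  · subst h; simp
  · simp [h]

lemma stdb_expand (n : ℕ) (w : EuclideanSpace ℂ (Fin n)) :
    w = ∑ i, ⟪stdb n i, w⟫_ℂ • stdb n i := by
  have h := (EuclideanSpace.basisFun (Fin n) ℂ).sum_repr' w
  simpa [stdb] using h.symm

lemma isDiag_of_mem {n : ℕ} {T : EuclideanSpace ℂ (Fin n) →L[ℂ] EuclideanSpace ℂ (Fin n)}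
    (hT : T ∈ diagAlg n) : IsDiag (stdb n) T := by
  intro i
  have h1 := (StarSubalgebra.mem_centralizer_iff ℂ).mp hT
    (InnerProductSpace.rankOne ℂ (stdb n i) (stdb n i)) ⟨i, rfl⟩
  have h2 := congrArg (fun S : EuclideanSpace ℂ (Fin n) →L[ℂ] EuclideanSpace ℂ (Fin n) =>
    S (stdb n i)) h1.1
  simp only [mul_apply', InnerProductSpace.rankOne_apply, stdb_inner, if_true, one_smul] at h2
  exact h2.symm

/-- A projection of `B(ℂ^n)` that almost fixes the standard basis is `1`. -/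
lemma proj_eq_one_of_close {n : ℕ}
    {q : EuclideanSpace ℂ (Fin n) →L[ℂ] EuclideanSpace ℂ (Fin n)} (hq : IsStarProjection q)
    (h : ∀ i, ‖(1 - q) (stdb n i)‖ < 1 / ((n : ℝ) + 1)) : q = 1 := by
  have hq' : IsStarProjection (1 - q) := hq.one_sub
  have key : ∀ w, (1 - q) w = 0 := by
    intro w
    set v := (1 - q) w with hv
    have hvv : (1 - q) v = v := proj_apply_apply hq' w
    by_contra hne
    have hpos : 0 < ‖v‖ := norm_pos_iff.mpr hne
    have h1 : v = ∑ i, ⟪stdb n i, v⟫_ℂ • (1 - q) (stdb n i) := by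
      conv_lhs => rw [← hvv, stdb_expand n v, map_sum]
      apply Finset.sum_congr rfl
      intro i _
      rw [map_smul]
    have hb : ∀ i, ‖stdb n i‖ = 1 := by
      intro i; simp [stdb]
    have h2 : ‖v‖ ≤ ∑ _i : Fin n, ‖v‖ * (1 / ((n : ℝ) + 1)) := by
      conv_lhs => rw [h1]
      refine (norm_sum_le _ _).trans (Finset.sum_le_sum fun i _ => ?_)
      rw [norm_smul]
      have h3 : ‖⟪stdb n i, v⟫_ℂ‖ ≤ ‖v‖ := by
        calc ‖⟪stdb n i, v⟫_ℂ‖ ≤ ‖stdb n i‖ * ‖v‖ := norm_inner_le_norm _ _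
          _ = ‖v‖ := by rw [hb, one_mul]
      exact mul_le_mul h3 (h i).le (norm_nonneg _) (norm_nonneg _)
    rw [Finset.sum_const, Finset.card_univ, Fintype.card_fin, nsmul_eq_mul] at h2
    have h4 : (n : ℝ) * (‖v‖ * (1 / ((n : ℝ) + 1))) < ‖v‖ := by
      have hn : (0 : ℝ) < (n : ℝ) + 1 := by positivity
      have : (n : ℝ) * (‖v‖ * (1 / ((n : ℝ) + 1))) = ‖v‖ * ((n : ℝ) / ((n : ℝ) + 1)) := by
        field_simp
      rw [this]
      have h5 : (n : ℝ) / ((n : ℝ) + 1) < 1 := by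
        rw [div_lt_one hn]; linarith
      nlinarith
    linarith
  ext1 w
  have := key w
  rw [sub_apply, one_apply_eq_self, sub_eq_zero] at this
  rw [one_apply_eq_self]
  exact this.symm

/-- In `B(ℂ^n)` so-paving over the diagonal is norm paving. -/
lemma norm_paving_of_soPavable {n : ℕ}
    {x : EuclideanSpace ℂ (Fin n) →L[ℂ] EuclideanSpace ℂ (Fin n)} {ε : ℝ} {r : ℕ}
    (h : SoPavable ⊤ (diagAlg n) x ε r) :
    ∃ (p : Fin r → (EuclideanSpace ℂ (Fin n) →L[ℂ] EuclideanSpace ℂ (Fin n)))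
      (a : EuclideanSpace ℂ (Fin n) →L[ℂ] EuclideanSpace ℂ (Fin n)),
      IsPartitionIn (diagAlg n) p ∧ (a ∈ diagAlg n ∧ IsSelfAdjoint a ∧ ‖a‖ ≤ ‖x‖) ∧
      ‖pinching p x - a‖ ≤ ε * ‖x‖ := by
  classical
  obtain ⟨p, a, q, hp, ha, ⟨_, hq⟩, hF, hn⟩ :=
    h (Finset.univ.image (stdb n)) (1 / ((n : ℝ) + 1)) (by positivity)
  have hq1 : q = 1 := proj_eq_one_of_close hq fun i =>
    hF _ (Finset.mem_image_of_mem _ (Finset.mem_univ i))
  rw [hq1, one_mul, mul_one] at hn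
  exact ⟨p, a, hp, ha, hn⟩

/-- **Transfer.** If all self-adjoint matrices of all sizes are `(ε, r)` so-pavable over the
diagonal, then every self-adjoint operator is `(ε, r)` so-pavable over every MASA of `B(H)`. -/
theorem IsMASA.soPavable_of_matrices (hA : IsMASA ⊤ A) {ε : ℝ} (hε : 0 ≤ ε) {r : ℕ}
    (hfin : ∀ (n : ℕ) (x₀ : EuclideanSpace ℂ (Fin n) →L[ℂ] EuclideanSpace ℂ (Fin n)),
      IsSelfAdjoint x₀ → SoPavable ⊤ (diagAlg n) x₀ ε r)
    {x : H →L[ℂ] H} (hx : IsSelfAdjoint x) : SoPavable ⊤ A x ε r := by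
  classical
  intro F δ hδ
  obtain ⟨η, I, _, e, he, hF⟩ := hA.exists_coarse F hδ
  set n := Fintype.card I with hn
  set σ : I ≃ Fin n := Fintype.equivFin I with hσ
  set b : I → EuclideanSpace ℂ (Fin n) := fun i => stdb n (σ i) with hb
  have hb1 : ∀ i k, ⟪b i, b k⟫_ℂ = if i = k then 1 else 0 := by
    intro i k
    simp only [hb]
    rw [stdb_inner]
    by_cases h : i = k
    · simp [h]
    · have : σ i ≠ σ k := fun h' => h (σ.injective h')
      simp [h, this]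
  have hb2 : ∀ w : EuclideanSpace ℂ (Fin n), w = ∑ i, ⟪b i, w⟫_ℂ • b i := by
    intro w
    conv_lhs => rw [stdb_expand n w]
    exact (Equiv.sum_comp σ fun j => ⟪stdb n j, w⟫_ℂ • stdb n j).symm
  have hbn : ∀ i, ‖b i‖ ≤ 1 := by
    intro i; simp [hb, stdb]
  have hdiag : ∀ T, T ∈ diagAlg n → IsDiag b T := by
    intro T hT i
    exact isDiag_of_mem hT (σ i)
  set u : I → H := fun i => nrm (e i η) with hu
  set q := frameProj u with hq
  have hqp : IsStarProjection q := frame_nrm_proj he η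
  set V := liftV b u with hV
  set W := liftW b u with hW
  have hVn : ‖V‖ ≤ 1 := norm_liftV_le hb1 hqp
  have hWn : ‖W‖ ≤ 1 := norm_liftW_le hb1 hqp
  set x₀ : EuclideanSpace ℂ (Fin n) →L[ℂ] EuclideanSpace ℂ (Fin n) := W ∘L x ∘L V with hx₀
  have hx₀sa : IsSelfAdjoint x₀ := by
    unfold IsSelfAdjoint
    rw [ContinuousLinearMap.star_eq_adjoint, hx₀, ContinuousLinearMap.adjoint_comp,
      ContinuousLinearMap.adjoint_comp, hV, hW, adjoint_liftV, adjoint_liftW,
      ← ContinuousLinearMap.star_eq_adjoint, hx.star_eq]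
    rfl
  have hx₀n : ‖x₀‖ ≤ ‖x‖ := by
    calc ‖x₀‖ ≤ ‖W‖ * ‖x ∘L V‖ := ContinuousLinearMap.opNorm_comp_le _ _
      _ ≤ ‖W‖ * (‖x‖ * ‖V‖) := by gcongr; exact ContinuousLinearMap.opNorm_comp_le _ _
      _ ≤ 1 * (‖x‖ * 1) := by gcongr
      _ = ‖x‖ := by ring
  obtain ⟨p₀, a₀, hp₀, ⟨ha₀m, ha₀sa, ha₀n⟩, hpave⟩ := norm_paving_of_soPavable (hfin n x₀ hx₀sa)
  have hp₀d : ∀ j, IsDiag b (p₀ j) := fun j => hdiag _ (hp₀.mem j)
  have ha₀d : IsDiag b a₀ := hdiag _ ha₀m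
  refine ⟨fun j => dlift b e (p₀ j), dlift b e a₀, q, ?_, ⟨dlift_mem he _, ?_, ?_⟩,
    ⟨by trivial, hqp⟩, ?_, ?_⟩
  · refine ⟨fun j => dlift_mem he _, fun j => ⟨?_, ?_⟩, ?_, ?_⟩
    · unfold IsIdempotentElem
      rw [← dlift_mul hb1 he (hp₀d j) (hp₀d j), (hp₀.proj j).isIdempotentElem.eq]
    · unfold IsSelfAdjoint
      rw [← dlift_star he, (hp₀.proj j).isSelfAdjoint.star_eq]
    · intro i j hij
      rw [← dlift_mul hb1 he (hp₀d i) (hp₀d j), hp₀.orth i j hij, dlift_zero]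
    · rw [← dlift_sum, hp₀.sum_eq_one, dlift_one hb1 he]
  · unfold IsSelfAdjoint
    rw [← dlift_star he, ha₀sa.star_eq]
  · exact (norm_dlift_le hbn he a₀).trans (ha₀n.trans hx₀n)
  · intro ξ hξ
    obtain ⟨c, hc⟩ := hF ξ hξ
    set y := ∑ i, c i • e i η with hy
    have hqy : q y = y := by
      rw [hy, map_sum]
      apply Finset.sum_congr rfl
      intro i _
      rw [map_smul, hq, hu, frame_nrm_apply he η i]
    have h1 : (1 - q) ξ = (1 - q) (ξ - y) := by
      simp [hqy]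
    rw [h1]
    exact (proj_norm_apply_le hqp.one_sub _).trans_lt hc
  · rw [hq, hu, transfer_identity hb1 hb2 he η x hp₀d ha₀d]
    calc _ ≤ ‖V‖ * ‖(pinching p₀ x₀ - a₀) ∘L W‖ := ContinuousLinearMap.opNorm_comp_le _ _
      _ ≤ ‖V‖ * (‖pinching p₀ x₀ - a₀‖ * ‖W‖) := by
          gcongr; exact ContinuousLinearMap.opNorm_comp_le _ _
      _ ≤ 1 * (‖pinching p₀ x₀ - a₀‖ * 1) := by gcongr
      _ = ‖pinching p₀ x₀ - a₀‖ := by ring
      _ ≤ ε * ‖x₀‖ := hpave
      _ ≤ ε * ‖x‖ := by gcongr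

/-- More pieces are allowed: pad a partition with zeros. -/
lemma SoPavable.mono {M : StarSubalgebra ℂ (H →L[ℂ] H)} {x : H →L[ℂ] H} {ε : ℝ} {r r' : ℕ}
    (hrr : r ≤ r') (h : SoPavable M A x ε r) : SoPavable M A x ε r' := by
  obtain ⟨k, rfl⟩ := Nat.exists_eq_add_of_le hrr
  intro F δ hδ
  obtain ⟨p, a, q, hp, ha, hq, hF, hn⟩ := h F δ hδ
  set p' : Fin (r + k) → (H →L[ℂ] H) := Fin.append p (fun _ => 0) with hp'
  have hpin : pinching p' x = pinching p x := by
    unfold pinching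
    rw [Fin.sum_univ_add]
    simp [hp']
  refine ⟨p', a, q, ⟨?_, ?_, ?_, ?_⟩, ha, hq, hF, by rw [hpin]; exact hn⟩
  · intro i
    refine Fin.addCases (fun i => ?_) (fun i => ?_) i
    · rw [hp', Fin.append_left]; exact hp.mem i
    · rw [hp', Fin.append_right]; exact zero_mem A
  · intro i
    refine Fin.addCases (fun i => ?_) (fun i => ?_) i
    · rw [hp', Fin.append_left]; exact hp.proj i
    · rw [hp', Fin.append_right]; exact IsStarProjection.zero _
  · intro i j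
    refine Fin.addCases (fun i => ?_) (fun i => ?_) i
    · refine Fin.addCases (fun j => ?_) (fun j => ?_) j
      · intro hij
        rw [hp', Fin.append_left, Fin.append_left]
        apply hp.orth
        intro h'
        exact hij (by rw [h'])
      · intro _
        rw [hp', Fin.append_right, mul_zero]
    · intro _
      rw [hp', Fin.append_right, zero_mul]
  · rw [Fin.sum_univ_add]
    simp [hp', hp.sum_eq_one]

/-- The so-paving number of any MASA of `B(H)` is at most the supremum of the so-paving numbers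
of the diagonal MASAs of the matrix algebras. -/
theorem IsMASA.pavingNumber_le_iSup (hA : IsMASA ⊤ A) {ε : ℝ} (hε : 0 ≤ ε) :
    pavingNumber ⊤ A ε ≤ ⨆ n : ℕ, pavingNumber ⊤ (diagAlg n) ε := by
  set S : ℕ∞ := ⨆ n : ℕ, pavingNumber ⊤ (diagAlg n) ε with hS
  rcases eq_or_ne S ⊤ with hST | hST
  · rw [hST]; exact le_top
  · obtain ⟨R, hR⟩ := ENat.ne_top_iff_exists.mp hST
    have hle : ∀ n, pavingNumber ⊤ (diagAlg n) ε ≤ (R : ℕ∞) := by
      intro n
      rw [hR, hS]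
      exact le_iSup (fun n : ℕ => pavingNumber ⊤ (diagAlg n) ε) n
    have hex : ∀ n, ∃ r : ℕ, 1 ≤ r ∧ r ≤ R ∧
        ∀ x ∈ (⊤ : StarSubalgebra ℂ (EuclideanSpace ℂ (Fin n) →L[ℂ] EuclideanSpace ℂ (Fin n))),
          IsSelfAdjoint x → SoPavable ⊤ (diagAlg n) x ε r := by
      intro n
      have h1 := hle n
      unfold pavingNumber at h1
      set T : Set ℕ∞ := {m : ℕ∞ | ∃ r : ℕ, 1 ≤ r ∧ m = (r : ℕ∞) ∧
        ∀ x ∈ (⊤ : StarSubalgebra ℂ (EuclideanSpace ℂ (Fin n) →L[ℂ] EuclideanSpace ℂ (Fin n))),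
          IsSelfAdjoint x → SoPavable ⊤ (diagAlg n) x ε r} with hT
      have hne : T.Nonempty := by
        by_contra hemp
        rw [Set.not_nonempty_iff_eq_empty] at hemp
        rw [hemp, sInf_empty] at h1
        exact absurd (top_le_iff.mp h1) (ENat.natCast_ne_top R)
      obtain ⟨r, hr1, hr2, hr3⟩ := csInf_mem hne
      refine ⟨r, hr1, ?_, hr3⟩
      rw [hr2] at h1
      exact_mod_cast h1
    have hR1 : 1 ≤ R := by
      obtain ⟨r, h1, h2, _⟩ := hex 0
      exact h1.trans h2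
    rw [← hR]
    apply sInf_le
    refine ⟨R, hR1, rfl, ?_⟩
    intro x _ hx
    apply hA.soPavable_of_matrices hε _ hx
    intro n x₀ hx₀
    obtain ⟨r, _, h2, h3⟩ := hex n
    exact (h3 x₀ (by trivial) hx₀).mono h2

end Vale.Agent.P078
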