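import Vale.Agent.P078.DefsNumber
import Vale.Agent.P078.Upper
import Vale.Agent.P078.Lower

/-!
# P078: the so-paving number of a diffuse MASA of `B(H)`
-/

namespace Vale.Agent.P078

open scoped InnerProductSpace

variable {H : Type*} [NormedAddCommGroup H] [InnerProductSpace ℂ H] [CompleteSpace H]
variable {A : StarSubalgebra ℂ (H →L[ℂ] H)}

lemma exists_unit_vector [Nontrivial H] : ∃ f : H, ‖f‖ = 1 := by
  obtain ⟨v, hv⟩ := exists_ne (0 : H)
  refine ⟨nrm v, ?_⟩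
  rcases nrm_norm v with h | h
  · exact h
  · exfalso
    have h1 := inner_nrm_smul v
    rw [h] at h1
    simp at h1
    exact hv h1.symm

theorem IsMASA.pavingNumber_bounds [Nontrivial H] (hA : IsMASA ⊤ A) (hd : IsDiffuse A) {ε : ℝ}
    (hε : 0 < ε) :
    ((⌈1 / ε⌉₊ : ℕ) : ℕ∞) ≤ pavingNumber ⊤ A ε ∧
      pavingNumber ⊤ A ε ≤ ((⌊1 / ε⌋₊ + 1 : ℕ) : ℕ∞) := by
  constructor
  · apply le_sInf
    rintro n ⟨r, _, rfl, hr⟩
    obtain ⟨f, hf⟩ := exists_unit_vector (H := H)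
    have h1 := hA.one_le_of_soPavable_refl hd hf hε.le (hr _ (by trivial) (refl_sa f))
    have h2 : 1 / ε ≤ r := by
      rw [div_le_iff₀ hε]; exact h1
    exact_mod_cast Nat.ceil_le.mpr h2
  · apply sInf_le
    refine ⟨⌊1 / ε⌋₊ + 1, by omega, rfl, ?_⟩
    intro x _ hx
    apply hA.soPavable_of_diffuse hd hx
    have h1 : 1 / ε < (⌊1 / ε⌋₊ : ℝ) + 1 := Nat.lt_floor_add_one _
    rw [div_lt_iff₀ hε] at h1
    push_cast
    exact h1

end Vale.Agent.P078
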